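import Vale.Agent.P159.T1.H42.Pin
import Vale.Agent.P159.H950.B1

/-!
The ratio `Rho` of the unfolding is bounded by the energy of a rotation by `π / 2` in the collar.
-/

open MeasureTheory Filter Topology
open scoped BigOperators

set_option linter.all false

namespace Vale.Agent.P159.T1.H42

open Vale.Agent.P159 Vale.Agent.P159.UJ Vale.Agent.P159.H950

/-- difference of two spins, spins off `I` are `0` -/
noncomputable def gI (I : Set (ℤ × ℤ)) (u v : ℤ × ℤ) : Chr Ginf :=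
  (grad u v).comp (proj I) (proj_cont _)

/-- characters of the region `R` with free spins `I` -/
noncomputable def chiJ (R : Finset (ℤ × ℤ)) (I : Set (ℤ × ℤ)) (e : KR R) : Chr Ginf :=
  gI I (hu e.1 e.2) (hv e.1 e.2)

/-- energy of the region `R` with free spins `I` -/
noncomputable def EH (b : ℝ) (R : Finset (ℤ × ℤ)) (I : Set (ℤ × ℤ)) : C(Ginf, ℝ) :=
  ∑ c ∈ R, ∑ t : HT, ContinuousMap.const Ginf (b / 2) * cc (gI I (hu c t) (hv c t))

lemma EH_apply (b : ℝ) (R : Finset (ℤ × ℤ)) (I : Set (ℤ × ℤ)) (θ : Ginf) :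
    EH b R I θ = ∑ c ∈ R, ∑ t : HT, b / 2 *
      cosT (proj I θ (hu c t) - proj I θ (hv c t)) := by
  unfold EH
  rw [ContinuousMap.coe_sum, Finset.sum_apply]
  refine Finset.sum_congr rfl fun c _ => ?_
  rw [ContinuousMap.coe_sum, Finset.sum_apply]
  rfl

lemma sum_KR' (R : Finset (ℤ × ℤ)) (F : ℤ × ℤ → HT → ℝ) :
    ∑ e : KR R, F e.1 e.2 = ∑ c ∈ R, ∑ t : HT, F c t := by
  rw [Fintype.sum_prod_type, ← Finset.sum_coe_sort R]

lemma EH_union (b : ℝ) {R R' : Finset (ℤ × ℤ)} (h : Disjoint R R') (I : Set (ℤ × ℤ)) :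
    EH b (R ∪ R') I = EH b R I + EH b R' I := by
  unfold EH
  rw [Finset.sum_union h]

lemma EH_pin (b : ℝ) (R : Finset (ℤ × ℤ)) (I S : Set (ℤ × ℤ)) (θ : Ginf) :
    EH b R I (pin S 0 θ) = EH b R (I \ S) θ := by
  have h : proj I (pin S 0 θ) = proj (I \ S) θ := by
    funext v
    by_cases h1 : v ∈ I
    · by_cases h2 : v ∈ S
      · rw [proj_of_mem h1, pin_mem h2, proj_of_notMem (fun h => h.2 h2)]
        rfl
      · rw [proj_of_mem h1, pin_notMem h2, proj_of_mem (show v ∈ I \ S from ⟨h1, h2⟩)]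
    · rw [proj_of_notMem h1, proj_of_notMem (fun h => h1 h.1)]
  rw [EH_apply, EH_apply, h]

/-- sites touched by a region -/
def st (R : Finset (ℤ × ℤ)) : Set (ℤ × ℤ) := {v | ∃ c ∈ R, ∃ t : HT, v = hu c t ∨ v = hv c t}

lemma EH_congr (b : ℝ) (R : Finset (ℤ × ℤ)) {I I' : Set (ℤ × ℤ)}
    (h : ∀ v ∈ st R, (v ∈ I ↔ v ∈ I')) : EH b R I = EH b R I' := by
  ext θ
  have h1 : ∀ v ∈ st R, proj I θ v = proj I' θ v := by
    intro v hv
    by_cases h2 : v ∈ I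
    · rw [proj_of_mem h2, proj_of_mem ((h v hv).1 h2)]
    · rw [proj_of_notMem h2, proj_of_notMem fun h3 => h2 ((h v hv).2 h3)]
  rw [EH_apply, EH_apply]
  refine Finset.sum_congr rfl fun c hc => Finset.sum_congr rfl fun t _ => ?_
  rw [h1 _ ⟨c, hc, t, Or.inl rfl⟩, h1 _ ⟨c, hc, t, Or.inr rfl⟩]

lemma EH_dep (b : ℝ) (R : Finset (ℤ × ℤ)) (I : Set (ℤ × ℤ)) :
    Dep (I ∩ st R) (EH b R I) := by
  intro θ θ' h
  have h1 : ∀ v ∈ st R, proj I θ v = proj I θ' v := by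
    intro v hv
    by_cases h2 : v ∈ I
    · rw [proj_of_mem h2, proj_of_mem h2, h v ⟨h2, hv⟩]
    · rw [proj_of_notMem h2, proj_of_notMem h2]
  rw [EH_apply, EH_apply]
  refine Finset.sum_congr rfl fun c hc => Finset.sum_congr rfl fun t _ => ?_
  rw [h1 _ ⟨c, hc, t, Or.inl rfl⟩, h1 _ ⟨c, hc, t, Or.inr rfl⟩]

/-- the partition function -/
noncomputable def ZE (b : ℝ) (R : Finset (ℤ × ℤ)) (I : Set (ℤ × ℤ)) : ℝ :=
  ∫ θ, cexp (EH b R I) θ ∂muInf

lemma cexp_int_pos (H : C(Ginf, ℝ)) : 0 < ∫ θ, cexp H θ ∂muInf :=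
  Continuous.integral_pos_of_hasCompactSupport_nonneg_nonzero (cexp H).continuous
    (HasCompactSupport.of_compactSpace _) (fun θ => (Real.exp_pos _).le) (x := 0)
    (Real.exp_pos _).ne'

lemma ZE_pos (b : ℝ) (R : Finset (ℤ × ℤ)) (I : Set (ℤ × ℤ)) : 0 < ZE b R I := cexp_int_pos _

theorem ZE_eq (b : ℝ) (R : Finset (ℤ × ℤ)) (I : Set (ℤ × ℤ)) :
    Zr muInf (fun _ : KR R => b / 2) (chiJ R I) 0 = ZE b R I := by
  unfold Zr ZE
  refine integral_congr_ae (Eventually.of_forall fun θ => ?_)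
  show Real.exp _ = Real.exp _
  congr 1
  rw [EH_apply, ← sum_KR' R fun c t => b / 2 * cosT (proj I θ (hu c t) - proj I θ (hv c t))]
  refine Finset.sum_congr rfl fun e _ => ?_
  simp only [Pi.zero_apply, Real.cos_zero, Real.sin_zero, mul_one, mul_zero, sub_zero]
  rfl

section cones

lemma EH_cos {b : ℝ} (hb : 0 ≤ b) (R : Finset (ℤ × ℤ)) (I : Set (ℤ × ℤ)) :
    EH b R I ∈ (PG Ginf).cosS := by
  unfold EH
  refine Subsemiring.sum_mem _ fun c _ => Subsemiring.sum_mem _ fun t _ => ?_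
  exact Subsemiring.mul_mem _ (Pos.cosS_const _ _ (by linarith)) (PG_cos _)

lemma ps_cos_PG (S : Finset (ℤ × ℤ)) : ps S 0 ∈ (PG Ginf).cosS := by
  have e : ps S 0 = ∑ v ∈ S, cc (sp v) := by
    ext θ
    rw [ContinuousMap.coe_sum, Finset.sum_apply, ps_apply]
    refine Finset.sum_congr rfl fun v _ => ?_
    show cosT (θ v - 0) = cosT (θ v)
    rw [sub_zero]
  rw [e]
  exact Subsemiring.sum_mem _ fun v _ => PG_cos _

lemma gin_w {X Y Z : C(Ginf, ℝ)} (hX : X ∈ (PG Ginf).cosS) (hY : Y ∈ (PG Ginf).cosS)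
    (hZ : Z ∈ (PG Ginf).cosS) :
    (∫ θ, cexp (X + Y) θ ∂muInf) * (∫ θ, cexp (X + Z) θ ∂muInf) ≤
      (∫ θ, cexp (X + Y + Z) θ ∂muInf) * ∫ θ, cexp X θ ∂muInf := by
  have h := gin (P := PG Ginf) (μ := muInf) G_div2 (PG_int muInf) (H := X) (F := cexp Y)
    (K := cexp Z) hX.1 ((PG Ginf).cexp_cosS hY) ((PG Ginf).cexp_cosS hZ)
  have e1 : ∀ θ, cexp (X + Y) θ = cexp X θ * cexp Y θ := fun θ => by
    rw [cexp_add]; rfl
  have e2 : ∀ θ, cexp (X + Z) θ = cexp X θ * cexp Z θ := fun θ => by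
    rw [cexp_add]; rfl
  have e3 : ∀ θ, cexp (X + Y + Z) θ = cexp X θ * (cexp Y θ * cexp Z θ) := fun θ => by
    rw [cexp_add, cexp_add]
    show cexp X θ * cexp Y θ * cexp Z θ = _
    ring
  simp_rw [e1, e2, e3]
  exact h

lemma ps_union {S S' : Finset (ℤ × ℤ)} (h : Disjoint S S') (φ : Ginf) :
    ps (S ∪ S') φ = ps S φ + ps S' φ := by
  ext θ
  rw [ContinuousMap.add_apply, ps_apply, ps_apply, ps_apply, Finset.sum_union h]

/-- the energy with strong fields on `S` -/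
noncomputable def wn (n : ℕ) (X : C(Ginf, ℝ)) (S : Finset (ℤ × ℤ)) : ℝ :=
  ∫ θ, cexp (X + ContinuousMap.const Ginf (n : ℝ) * ps S 0) θ ∂muInf

lemma wn_lim (X : C(Ginf, ℝ)) (S : Finset (ℤ × ℤ)) :
    Tendsto (fun n => (NN n S 0)⁻¹ * wn n X S) atTop
      (𝓝 (∫ θ, cexp X (pin S 0 θ) ∂muInf)) := by
  have h := peak S 0 (cexp X).continuous
  refine h.congr fun n => ?_
  congr 1
  unfold wn
  refine integral_congr_ae (Eventually.of_forall fun θ => ?_)
  show PK n S 0 θ * cexp X θ = _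
  rw [cexp_add, ContinuousMap.mul_apply, mul_comm]
  rfl

/-- **supermodularity with pins** -/
theorem super {H0 α β : C(Ginf, ℝ)} (h0 : H0 ∈ (PG Ginf).cosS) (hα : α ∈ (PG Ginf).cosS)
    (hβ : β ∈ (PG Ginf).cosS) {L L' La La' : Finset (ℤ × ℤ)} (hLa : La ⊆ L) (hLa' : La' ⊆ L')
    (hLL : Disjoint L L') :
    (∫ θ, cexp (H0 + α + β) (pin ((La ∪ La' : Finset (ℤ × ℤ)) : Set (ℤ × ℤ)) 0 θ) ∂muInf) *
      (∫ θ, cexp (H0 + α) (pin (L : Set (ℤ × ℤ)) 0 θ) ∂muInf) *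
      (∫ θ, cexp (H0 + β) (pin (L' : Set (ℤ × ℤ)) 0 θ) ∂muInf) ≤
    (∫ θ, cexp (H0 + α + β) (pin ((L ∪ L' : Finset (ℤ × ℤ)) : Set (ℤ × ℤ)) 0 θ) ∂muInf) *
      (∫ θ, cexp (H0 + α) (pin (La : Set (ℤ × ℤ)) 0 θ) ∂muInf) *
      (∫ θ, cexp (H0 + β) (pin (La' : Set (ℤ × ℤ)) 0 θ) ∂muInf) := by
  have hd1 : Disjoint La La' := Finset.disjoint_of_subset_left hLa
    (Finset.disjoint_of_subset_right hLa' hLL)
  have hd2 : Disjoint L La' := Finset.disjoint_of_subset_right hLa' hLL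
  refine le_of_tendsto_of_tendsto'
    (((wn_lim (H0 + α + β) (La ∪ La')).mul (wn_lim (H0 + α) L)).mul (wn_lim (H0 + β) L'))
    (((wn_lim (H0 + α + β) (L ∪ L')).mul (wn_lim (H0 + α) La)).mul (wn_lim (H0 + β) La'))
    fun n => ?_
  have hn : ContinuousMap.const Ginf (n : ℝ) ∈ (PG Ginf).cosS :=
    Pos.cosS_const _ _ (Nat.cast_nonneg n)
  have hps : ∀ S, ContinuousMap.const Ginf (n : ℝ) * ps S 0 ∈ (PG Ginf).cosS := fun S =>
    Subsemiring.mul_mem _ hn (ps_cos_PG S)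
  set N : C(Ginf, ℝ) := ContinuousMap.const Ginf (n : ℝ) with hN
  have hsub : ∀ {A B : Finset (ℤ × ℤ)}, A ⊆ B → ps B 0 = ps A 0 + ps (B \ A) 0 := by
    intro A B h
    rw [← ps_union Finset.disjoint_sdiff, Finset.union_sdiff_of_subset h]
  have E1 := gin_w (X := H0 + α + N * ps La 0) (Y := N * ps (L \ La) 0)
    (Z := β + N * ps La' 0)
    (Subsemiring.add_mem _ (Subsemiring.add_mem _ h0 hα) (hps _)) (hps _)
    (Subsemiring.add_mem _ hβ (hps _))
  have E2 := gin_w (X := H0 + β + N * ps La' 0) (Y := α + N * ps L 0)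
    (Z := N * ps (L' \ La') 0)
    (Subsemiring.add_mem _ (Subsemiring.add_mem _ h0 hβ) (hps _))
    (Subsemiring.add_mem _ hα (hps _)) (hps _)
  have a1 : H0 + α + N * ps La 0 + N * ps (L \ La) 0 = H0 + α + N * ps L 0 := by
    rw [hsub hLa]; ring
  have a2 : H0 + α + N * ps La 0 + (β + N * ps La' 0) = H0 + α + β + N * ps (La ∪ La') 0 := by
    rw [ps_union hd1]; ring
  have a3 : H0 + α + N * ps La 0 + N * ps (L \ La) 0 + (β + N * ps La' 0) =
      H0 + α + β + N * ps (L ∪ La') 0 := by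
    rw [ps_union hd2, hsub hLa]; ring
  have b1 : H0 + β + N * ps La' 0 + (α + N * ps L 0) = H0 + α + β + N * ps (L ∪ La') 0 := by
    rw [ps_union hd2]; ring
  have b2 : H0 + β + N * ps La' 0 + N * ps (L' \ La') 0 = H0 + β + N * ps L' 0 := by
    rw [hsub hLa']; ring
  have b3 : H0 + β + N * ps La' 0 + (α + N * ps L 0) + N * ps (L' \ La') 0 =
      H0 + α + β + N * ps (L ∪ L') 0 := by
    rw [ps_union hLL, hsub hLa']; ring
  rw [a3, a1, a2] at E1
  rw [b3, b1, b2] at E2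
  change wn n (H0 + α) L * wn n (H0 + α + β) (La ∪ La') ≤
    wn n (H0 + α + β) (L ∪ La') * wn n (H0 + α) La at E1
  change wn n (H0 + α + β) (L ∪ La') * wn n (H0 + β) L' ≤
    wn n (H0 + α + β) (L ∪ L') * wn n (H0 + β) La' at E2
  have p : ∀ X S, 0 < wn n X S := fun X S => cexp_int_pos _
  have q : ∀ S, 0 < NN n S 0 := fun S => NN_pos n S 0
  have key : wn n (H0 + α + β) (La ∪ La') * wn n (H0 + α) L * wn n (H0 + β) L' ≤
      wn n (H0 + α + β) (L ∪ L') * wn n (H0 + α) La * wn n (H0 + β) La' := by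
    calc wn n (H0 + α + β) (La ∪ La') * wn n (H0 + α) L * wn n (H0 + β) L'
        = (wn n (H0 + α) L * wn n (H0 + α + β) (La ∪ La')) * wn n (H0 + β) L' := by ring
      _ ≤ (wn n (H0 + α + β) (L ∪ La') * wn n (H0 + α) La) * wn n (H0 + β) L' :=
          mul_le_mul_of_nonneg_right E1 (p _ _).le
      _ = (wn n (H0 + α + β) (L ∪ La') * wn n (H0 + β) L') * wn n (H0 + α) La := by ring
      _ ≤ (wn n (H0 + α + β) (L ∪ L') * wn n (H0 + β) La') * wn n (H0 + α) La :=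
          mul_le_mul_of_nonneg_right E2 (p _ _).le
      _ = _ := by ring
  have e1 : (NN n (La ∪ La') 0)⁻¹ * wn n (H0 + α + β) (La ∪ La') *
      ((NN n L 0)⁻¹ * wn n (H0 + α) L) * ((NN n L' 0)⁻¹ * wn n (H0 + β) L') =
      (NN n La 0 * NN n La' 0 * NN n L 0 * NN n L' 0)⁻¹ *
      (wn n (H0 + α + β) (La ∪ La') * wn n (H0 + α) L * wn n (H0 + β) L') := by
    rw [NN_union n hd1, mul_inv, mul_inv, mul_inv, mul_inv]; ring
  have e2 : (NN n (L ∪ L') 0)⁻¹ * wn n (H0 + α + β) (L ∪ L') *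
      ((NN n La 0)⁻¹ * wn n (H0 + α) La) * ((NN n La' 0)⁻¹ * wn n (H0 + β) La') =
      (NN n La 0 * NN n La' 0 * NN n L 0 * NN n L' 0)⁻¹ *
      (wn n (H0 + α + β) (L ∪ L') * wn n (H0 + α) La * wn n (H0 + β) La') := by
    rw [NN_union n hLL, mul_inv, mul_inv, mul_inv, mul_inv]; ring
  rw [e1, e2]
  exact mul_le_mul_of_nonneg_left key (inv_nonneg.2
    (mul_nonneg (mul_nonneg (mul_nonneg (q _).le (q _).le) (q _).le) (q _).le))

end cones

section kpvpins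

lemma pin_empty (φ θ : Ginf) : pin ∅ φ θ = θ := by
  funext v
  exact pin_notMem (Set.notMem_empty v)

open Classical in
/-- spins off `I` replaced by the angles `τ` -/
noncomputable def wal (I : Set (ℤ × ℤ)) (τ : Ginf) (θ : Ginf) : Ginf :=
  fun v => if v ∈ I then θ v else τ v

lemma wal_mem {I : Set (ℤ × ℤ)} {τ θ : Ginf} {v : ℤ × ℤ} (h : v ∈ I) :
    wal I τ θ v = θ v := by
  simp [wal, h]

lemma wal_notMem {I : Set (ℤ × ℤ)} {τ θ : Ginf} {v : ℤ × ℤ} (h : v ∉ I) :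
    wal I τ θ v = τ v := by
  simp [wal, h]

lemma wal_cont (I : Set (ℤ × ℤ)) (τ : Ginf) (v : ℤ × ℤ) :
    Continuous fun θ : Ginf => wal I τ θ v := by
  by_cases h : v ∈ I
  · have : (fun θ : Ginf => wal I τ θ v) = fun θ => θ v := by
      funext θ; exact wal_mem h
    rw [this]
    exact continuous_apply v
  · have : (fun θ : Ginf => wal I τ θ v) = fun _ => τ v := by
      funext θ; exact wal_notMem h
    rw [this]
    exact continuous_const

/-- cosine and sine of a spin with walls -/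
noncomputable def cw (I : Set (ℤ × ℤ)) (τ : Ginf) (v : ℤ × ℤ) : C(Ginf, ℝ) :=
  ⟨fun θ => cosT (wal I τ θ v), cont_cos.comp (wal_cont I τ v)⟩

noncomputable def sw (I : Set (ℤ × ℤ)) (τ : Ginf) (v : ℤ × ℤ) : C(Ginf, ℝ) :=
  ⟨fun θ => sinT (wal I τ θ v), cont_sin.comp (wal_cont I τ v)⟩

variable {I : Set (ℤ × ℤ)} {τ : Ginf}

lemma cw_mem (hτ : ∀ v, 0 ≤ cosT (τ v)) (v : ℤ × ℤ) : cw I τ v ∈ PM.cosS := by
  by_cases h : v ∈ I
  · have e : cw I τ v = cc (sp v) := by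
      ext θ
      show cosT (wal I τ θ v) = cosT (θ v)
      rw [wal_mem h]
    rw [e]; exact PM_cos v
  · have e : cw I τ v = ContinuousMap.const Ginf (cosT (τ v)) := by
      ext θ
      show cosT (wal I τ θ v) = cosT (τ v)
      rw [wal_notMem h]
    rw [e]; exact Pos.cosS_const _ _ (hτ v)

lemma sw_mem (hτ : ∀ v, 0 ≤ sinT (τ v)) (v : ℤ × ℤ) : sw I τ v ∈ PM.sinS := by
  by_cases h : v ∈ I
  · have e : sw I τ v = ss (sp v) := by
      ext θ
      show sinT (wal I τ θ v) = sinT (θ v)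
      rw [wal_mem h]
    rw [e]; exact PM_sin v
  · have e : sw I τ v = ContinuousMap.const Ginf (sinT (τ v)) := by
      ext θ
      show sinT (wal I τ θ v) = sinT (τ v)
      rw [wal_notMem h]
    rw [e]; exact Pos.sinS_const _ _ (hτ v)

lemma cosT_sub (x y : T) : cosT (x - y) = cosT x * cosT y + sinT x * sinT y := by
  rw [sub_eq_add_neg]
  have h : cosT (x + -y) = cosT x * cosT (-y) - sinT x * sinT (-y) := Real.Angle.cos_add x (-y)
  rw [h, cosT_neg, sinT_neg]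
  ring

/-- the energy with walls at the angles `τ` -/
noncomputable def EW (b : ℝ) (R : Finset (ℤ × ℤ)) (I : Set (ℤ × ℤ)) (τ : Ginf) : C(Ginf, ℝ) :=
  ∑ c ∈ R, ∑ t : HT, ContinuousMap.const Ginf (b / 2) *
    (cw I τ (hu c t) * cw I τ (hv c t) + sw I τ (hu c t) * sw I τ (hv c t))

lemma EW_apply (b : ℝ) (R : Finset (ℤ × ℤ)) (I : Set (ℤ × ℤ)) (τ θ : Ginf) :
    EW b R I τ θ = ∑ c ∈ R, ∑ t : HT, b / 2 *
      cosT (wal I τ θ (hu c t) - wal I τ θ (hv c t)) := by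
  unfold EW
  rw [ContinuousMap.coe_sum, Finset.sum_apply]
  refine Finset.sum_congr rfl fun c _ => ?_
  rw [ContinuousMap.coe_sum, Finset.sum_apply]
  refine Finset.sum_congr rfl fun t _ => ?_
  rw [cosT_sub]
  rfl

lemma even_add {P : Pos Ginf} {f g : C(Ginf, ℝ)} (hf : P.Even f) (hg : P.Even g) :
    P.Even (f + g) := by
  have e : pl (f + g) + mi (f + g) = (pl f + mi f) + (pl g + mi g) := by
    ext p; simp; ring
  unfold Pos.Even
  rw [e]
  exact P.S.add_mem hf hg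

lemma even_zero {P : Pos Ginf} : P.Even 0 := by
  have e : pl (0 : C(Ginf, ℝ)) + mi 0 = 0 := by ext p; simp
  unfold Pos.Even
  rw [e]; exact P.S.zero_mem

lemma even_sum {P : Pos Ginf} {ι : Type*} (s : Finset ι) (f : ι → C(Ginf, ℝ))
    (h : ∀ i ∈ s, P.Even (f i)) : P.Even (∑ i ∈ s, f i) := by
  classical
  induction s using Finset.induction_on with
  | empty => simpa using even_zero
  | insert i s hi ih =>
    rw [Finset.sum_insert hi]
    exact even_add (h i (Finset.mem_insert_self _ _)) (ih fun j hj => h j (Finset.mem_insert_of_mem hj))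

lemma even_const_mul {P : Pos Ginf} {f : C(Ginf, ℝ)} (hf : P.Even f) {r : ℝ} (hr : 0 ≤ r) :
    P.Even (ContinuousMap.const Ginf r * f) := by
  have e : pl (ContinuousMap.const Ginf r * f) + mi (ContinuousMap.const Ginf r * f) =
      ContinuousMap.const (Ginf × Ginf) r * (pl f + mi f) := by
    ext p; simp; ring
  unfold Pos.Even
  rw [e]
  exact P.S.mul_mem (P.const _ hr) hf

lemma EW_even {b : ℝ} (hb : 0 ≤ b) (R : Finset (ℤ × ℤ)) (h1 : ∀ v, 0 ≤ cosT (τ v))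
    (h2 : ∀ v, 0 ≤ sinT (τ v)) : PM.Even (EW b R I τ) := by
  unfold EW
  refine even_sum _ _ fun c _ => even_sum _ _ fun t _ => even_const_mul ?_ (by linarith)
  refine even_add ?_ ?_
  · exact (Subsemiring.mul_mem _ (cw_mem h1 _) (cw_mem h1 _)).1
  · exact (Subsemiring.mul_mem _ (sw_mem h2 _) (sw_mem h2 _)).1

lemma ps_cos {S : Finset (ℤ × ℤ)} (h : ∀ v ∈ S, τ v = 0) : ps S τ ∈ PM.cosS := by
  have e : ps S τ = ∑ v ∈ S, cc (sp v) := by
    ext θ
    rw [ContinuousMap.coe_sum, Finset.sum_apply, ps_apply]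
    refine Finset.sum_congr rfl fun v hv => ?_
    show cosT (θ v - τ v) = cosT (θ v)
    rw [h v hv, sub_zero]
  rw [e]
  exact Subsemiring.sum_mem _ fun v _ => PM_cos _

lemma ps_sin {S : Finset (ℤ × ℤ)} (h : ∀ v ∈ S, τ v = ((Real.pi / 2 : ℝ) : T)) :
    ps S τ ∈ PM.sinS := by
  have e : ps S τ = ∑ v ∈ S, ss (sp v) := by
    ext θ
    rw [ContinuousMap.coe_sum, Finset.sum_apply, ps_apply]
    refine Finset.sum_congr rfl fun v hv => ?_
    show cosT (θ v - τ v) = sinT (θ v)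
    rw [h v hv]
    exact Real.Angle.cos_sub_pi_div_two (θ v)
  rw [e]
  exact Subsemiring.sum_mem _ fun v _ => PM_sin _

/-- **KPV inequality with pinned spins** -/
theorem kpv_pin {b : ℝ} (hb : 0 ≤ b) (R : Finset (ℤ × ℤ)) (h1 : ∀ v, 0 ≤ cosT (τ v))
    (h2 : ∀ v, 0 ≤ sinT (τ v)) {L L' : Finset (ℤ × ℤ)} (hL : ∀ v ∈ L, τ v = 0)
    (hL' : ∀ v ∈ L', τ v = ((Real.pi / 2 : ℝ) : T)) (hLL : Disjoint L L') :
    (∫ θ, cexp (EW b R I τ) (pin ((L ∪ L' : Finset (ℤ × ℤ)) : Set (ℤ × ℤ)) τ θ) ∂muInf) *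
      (∫ θ, cexp (EW b R I τ) θ ∂muInf) ≤
    (∫ θ, cexp (EW b R I τ) (pin (L : Set (ℤ × ℤ)) τ θ) ∂muInf) *
      (∫ θ, cexp (EW b R I τ) (pin (L' : Set (ℤ × ℤ)) τ θ) ∂muInf) := by
  set H := EW b R I τ with hH
  refine le_of_tendsto_of_tendsto' ((peak (L ∪ L') τ (cexp H).continuous).mul_const _)
    ((peak L τ (cexp H).continuous).mul (peak L' τ (cexp H).continuous)) fun n => ?_
  have hn1 : ContinuousMap.const Ginf (n : ℝ) ∈ PM.cosS :=
    Pos.cosS_const _ _ (Nat.cast_nonneg n)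
  have hn2 : ContinuousMap.const Ginf (n : ℝ) ∈ PM.sinS :=
    Pos.sinS_const _ _ (Nat.cast_nonneg n)
  have h := kpv (P := PM) (μ := muInf) G_div2 PM_int (H := H) (F := PK n L τ) (K := PK n L' τ)
    (EW_even hb R h1 h2) (Pos.cexp_cosS _ (Subsemiring.mul_mem _ hn1 (ps_cos hL)))
    (Pos.cexp_sinS _ (Subsemiring.mul_mem _ hn2 (ps_sin hL')))
  rw [NN_union n hLL, PK_union n hLL]
  have q : ∀ S, 0 < NN n S τ := fun S => NN_pos n S τ
  have e1 : ∫ θ, (PK n L τ * PK n L' τ) θ * cexp H θ ∂muInf =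
      ∫ x, cexp H x * (PK n L τ x * PK n L' τ x) ∂muInf := by
    refine integral_congr_ae (Eventually.of_forall fun θ => ?_)
    show PK n L τ θ * PK n L' τ θ * cexp H θ = _
    ring
  have e2 : ∀ S, ∫ θ, PK n S τ θ * cexp H θ ∂muInf = ∫ x, cexp H x * PK n S τ x ∂muInf := by
    intro S
    refine integral_congr_ae (Eventually.of_forall fun θ => ?_)
    show PK n S τ θ * cexp H θ = _
    ring
  rw [e1, e2, e2]
  calc (NN n L τ * NN n L' τ)⁻¹ * (∫ x, cexp H x * (PK n L τ x * PK n L' τ x) ∂muInf) *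
        ∫ θ, cexp H θ ∂muInf
      = (NN n L τ * NN n L' τ)⁻¹ * ((∫ x, cexp H x * (PK n L τ x * PK n L' τ x) ∂muInf) *
        ∫ θ, cexp H θ ∂muInf) := by ring
    _ ≤ (NN n L τ * NN n L' τ)⁻¹ * ((∫ x, cexp H x * PK n L τ x ∂muInf) *
        ∫ x, cexp H x * PK n L' τ x ∂muInf) :=
        mul_le_mul_of_nonneg_left h (inv_nonneg.2 (mul_nonneg (q _).le (q _).le))
    _ = _ := by rw [mul_inv]; ring

end kpvpins

/-- the twist of a site function -/
def dT (R : Finset (ℤ × ℤ)) (f : ℤ × ℤ → ℝ) (e : KR R) : ℝ :=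
  f (hu e.1 e.2) - f (hv e.1 e.2)

/-- rotation of all spins -/
lemma wal_int (b : ℝ) (R : Finset (ℤ × ℤ)) (I S : Set (ℤ × ℤ)) (f : ℤ × ℤ → ℝ) :
    ∫ θ, cexp (EW b R I (fun v => (f v : T))) (pin S (fun v => (f v : T)) θ) ∂muInf =
      Zr muInf (fun _ : KR R => b / 2) (chiJ R (I \ S)) (dT R f) := by
  rw [← integral_add_right (fun v => (f v : T))]
  unfold Zr
  refine integral_congr_ae (Eventually.of_forall fun θ => ?_)
  show Real.exp _ = Real.exp _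
  congr 1
  rw [EW_apply, ← sum_KR' R fun c t => b / 2 * cosT (wal I (fun v => (f v : T))
    (pin S (fun v => (f v : T)) (θ + fun v => (f v : T))) (hu c t) - wal I (fun v => (f v : T))
    (pin S (fun v => (f v : T)) (θ + fun v => (f v : T))) (hv c t))]
  refine Finset.sum_congr rfl fun e _ => ?_
  have h : ∀ v, wal I (fun v => (f v : T)) (pin S (fun v => (f v : T))
      (θ + fun v => (f v : T))) v = proj (I \ S) θ v + (f v : T) := by
    intro v
    by_cases h1 : v ∈ I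
    · by_cases h2 : v ∈ S
      · rw [wal_mem h1, pin_mem h2, proj_of_notMem (fun h => h.2 h2), zero_add]
      · rw [wal_mem h1, pin_notMem h2, proj_of_mem (show v ∈ I \ S from ⟨h1, h2⟩)]
        rfl
    · rw [wal_notMem h1, proj_of_notMem (fun h => h1 h.1), zero_add]
  rw [h, h]
  congr 1
  have h3 : proj (I \ S) θ (hu e.1 e.2) + (f (hu e.1 e.2) : T) -
      (proj (I \ S) θ (hv e.1 e.2) + (f (hv e.1 e.2) : T)) =
      (proj (I \ S) θ (hu e.1 e.2) - proj (I \ S) θ (hv e.1 e.2)) +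
        ((f (hu e.1 e.2) - f (hv e.1 e.2) : ℝ) : T) := by
    rw [AddCircle.coe_sub]; abel
  rw [h3]
  have h4 : ∀ (x : T) (r : ℝ), cosT (x + (r : T)) = cosT x * Real.cos r - sinT x * Real.sin r := by
    intro x r
    have := Real.Angle.cos_add x ((r : ℝ) : Real.Angle)
    rw [Real.Angle.cos_coe, Real.Angle.sin_coe] at this
    exact this
  rw [h4]
  rfl

lemma Zr_lower {b : ℝ} (hb : 0 ≤ b) (R : Finset (ℤ × ℤ)) (I : Set (ℤ × ℤ)) (t : KR R → ℝ) :
    Real.exp (-(∑ e : KR R, b / 2 * t e ^ 2) / 2) *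
      Zr muInf (fun _ : KR R => b / 2) (chiJ R I) 0 ≤
      Zr muInf (fun _ : KR R => b / 2) (chiJ R I) t := by
  have h1 := lowerZ muInf (fun _ : KR R => b / 2) (chiJ R I) G_div2 (half_nonneg' hb R) t
  rw [QQ_zero] at h1
  have h2 := Qform_le muInf (fun _ : KR R => b / 2) (chiJ R I) (half_nonneg' hb R) t
  have h3 := Zr_pos muInf (fun _ : KR R => b / 2) (chiJ R I) 0
  rw [le_div_iff₀ h3] at h1
  refine le_trans (mul_le_mul_of_nonneg_right (Real.exp_le_exp.2 ?_) h3.le) h1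
  linarith

/-- **the two ended collar** -/
theorem collar {b : ℝ} (hb : 0 ≤ b) (R : Finset (ℤ × ℤ)) (I : Set (ℤ × ℤ))
    {L L' : Finset (ℤ × ℤ)} (hLL : Disjoint L L') (f : ℤ × ℤ → ℝ)
    (hf : ∀ v, 0 ≤ f v ∧ f v ≤ Real.pi / 2) (hL : ∀ v ∈ L, f v = 0)
    (hL' : ∀ v ∈ L', f v = Real.pi / 2) :
    ZE b R (I \ ((L ∪ L' : Finset (ℤ × ℤ)) : Set (ℤ × ℤ))) * ZE b R I ≤
      Real.exp (∑ e : KR R, b / 2 * dT R f e ^ 2) *
        (ZE b R (I \ (L : Set (ℤ × ℤ))) * ZE b R (I \ (L' : Set (ℤ × ℤ)))) := by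
  have c1 : ∀ v, 0 ≤ cosT ((fun v => (f v : T)) v) := by
    intro v
    show 0 ≤ Real.cos (f v)
    exact Real.cos_nonneg_of_neg_pi_div_two_le_of_le (by linarith [(hf v).1, Real.pi_pos])
      (hf v).2
  have c2 : ∀ v, 0 ≤ sinT ((fun v => (f v : T)) v) := by
    intro v
    show 0 ≤ Real.sin (f v)
    exact Real.sin_nonneg_of_nonneg_of_le_pi (hf v).1 (by linarith [(hf v).2, Real.pi_pos])
  have h := kpv_pin (I := I) hb R c1 c2 (L := L) (L' := L')
    (fun v hv => by show ((f v : ℝ) : T) = 0; rw [hL v hv]; rfl)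
    (fun v hv => by show ((f v : ℝ) : T) = _; rw [hL' v hv]) hLL
  have e0 : ∫ θ, cexp (EW b R I (fun v => (f v : T))) θ ∂muInf =
      Zr muInf (fun _ : KR R => b / 2) (chiJ R I) (dT R f) := by
    have := wal_int b R I ∅ f
    rw [Set.diff_empty] at this
    rw [← this]
    refine integral_congr_ae (Eventually.of_forall fun θ => ?_)
    show cexp _ θ = cexp _ (pin ∅ _ θ)
    rw [pin_empty]
  rw [wal_int, wal_int, wal_int, e0] at h
  set s := ∑ e : KR R, b / 2 * dT R f e ^ 2 with hs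
  have l1 := Zr_lower hb R (I \ ((L ∪ L' : Finset (ℤ × ℤ)) : Set (ℤ × ℤ))) (dT R f)
  have l2 := Zr_lower hb R I (dT R f)
  have u1 := Zr_le muInf (fun _ : KR R => b / 2) (chiJ R (I \ (L : Set (ℤ × ℤ)))) G_div2
    (half_nonneg' hb R) (dT R f)
  have u2 := Zr_le muInf (fun _ : KR R => b / 2) (chiJ R (I \ (L' : Set (ℤ × ℤ)))) G_div2
    (half_nonneg' hb R) (dT R f)
  rw [← hs] at l1 l2
  rw [ZE_eq] at l1 l2 u1 u2
  have p := fun X => Zr_pos muInf (fun _ : KR R => b / 2) (chiJ R X) (dT R f)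
  have hs1 : Real.exp (-s / 2) * Real.exp (-s / 2) * Real.exp s = 1 := by
    rw [← Real.exp_add, ← Real.exp_add, ← Real.exp_zero]
    congr 1
    ring
  have k1 : (Real.exp (-s / 2) * ZE b R (I \ ((L ∪ L' : Finset (ℤ × ℤ)) : Set (ℤ × ℤ)))) *
      (Real.exp (-s / 2) * ZE b R I) ≤
      ZE b R (I \ (L : Set (ℤ × ℤ))) * ZE b R (I \ (L' : Set (ℤ × ℤ))) := by
    refine (mul_le_mul l1 l2 (mul_nonneg (Real.exp_pos _).le (ZE_pos _ _ _).le) (p _).le).trans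
      (h.trans (mul_le_mul u1 u2 (p _).le (ZE_pos _ _ _).le))
  calc ZE b R (I \ ((L ∪ L' : Finset (ℤ × ℤ)) : Set (ℤ × ℤ))) * ZE b R I
      = Real.exp s * ((Real.exp (-s / 2) *
          ZE b R (I \ ((L ∪ L' : Finset (ℤ × ℤ)) : Set (ℤ × ℤ)))) *
        (Real.exp (-s / 2) * ZE b R I)) := by
        have : Real.exp s * ((Real.exp (-s / 2) *
          ZE b R (I \ ((L ∪ L' : Finset (ℤ × ℤ)) : Set (ℤ × ℤ)))) *
          (Real.exp (-s / 2) * ZE b R I)) =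
          (Real.exp (-s / 2) * Real.exp (-s / 2) * Real.exp s) *
          (ZE b R (I \ ((L ∪ L' : Finset (ℤ × ℤ)) : Set (ℤ × ℤ))) * ZE b R I) := by ring
        rw [this, hs1, one_mul]
    _ ≤ _ := mul_le_mul_of_nonneg_left k1 (Real.exp_pos _).le

lemma ZE_split {b : ℝ} {R R' : Finset (ℤ × ℤ)} (h : Disjoint R R') {I : Set (ℤ × ℤ)}
    (hI : ∀ v ∈ I, v ∈ st R → v ∉ st R') : ZE b (R ∪ R') I = ZE b R I * ZE b R' I := by
  unfold ZE
  rw [EH_union b h]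
  have e : ∀ θ, cexp (EH b R I + EH b R' I) θ = cexp (EH b R I) θ * cexp (EH b R' I) θ := by
    intro θ
    rw [cexp_add]; rfl
  simp_rw [e]
  refine indep (S := I ∩ st R) (cexp (EH b R I)).continuous (cexp (EH b R' I)).continuous
    (fun θ θ' h1 => ?_) (fun θ θ' h1 => ?_)
  · show Real.exp _ = Real.exp _
    rw [EH_dep b R I θ θ' h1]
  · show Real.exp _ = Real.exp _
    rw [EH_dep b R' I θ θ' fun v hv => h1 v fun h2 => hI v hv.1 h2.2 hv.2]

/-- **tightness of `Rho`** -/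
theorem rho_le {b : ℝ} (hb : 0 ≤ b) {R0 El Er : Finset (ℤ × ℤ)} (h01 : Disjoint R0 El)
    (h02 : Disjoint R0 Er) (h12 : Disjoint El Er) (I : Set (ℤ × ℤ))
    {L L' La La' : Finset (ℤ × ℤ)} (hLa : La ⊆ L) (hLa' : La' ⊆ L') (hLL : Disjoint L L')
    (hl : ∀ v ∈ I, v ∈ st El → v ∈ st R0 ∨ v ∈ st Er ∨ v ∈ L' → v ∈ L)
    (hr : ∀ v ∈ I, v ∈ st Er → v ∈ st R0 ∨ v ∈ st El ∨ v ∈ L → v ∈ L')
    (f : ℤ × ℤ → ℝ) (hf : ∀ v, 0 ≤ f v ∧ f v ≤ Real.pi / 2) (hL : ∀ v ∈ L, f v = 0)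
    (hL' : ∀ v ∈ L', f v = Real.pi / 2) :
    ZE b (R0 ∪ El ∪ Er) (I \ ((La ∪ La' : Finset (ℤ × ℤ)) : Set (ℤ × ℤ))) * ZE b R0 I ≤
      Real.exp (∑ e : KR R0, b / 2 * dT R0 f e ^ 2) *
        (ZE b (R0 ∪ El) (I \ (La : Set (ℤ × ℤ))) * ZE b (R0 ∪ Er) (I \ (La' : Set (ℤ × ℤ)))) := by
  have hdj : Disjoint (R0 ∪ El) Er := Finset.disjoint_union_left.2 ⟨h02, h12⟩
  have hs := super (EH_cos hb R0 I) (EH_cos hb El I) (EH_cos hb Er I) hLa hLa' hLL
  rw [← EH_union b h01, ← EH_union b hdj, ← EH_union b h02] at hs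
  have e : ∀ (R : Finset (ℤ × ℤ)) (S : Finset (ℤ × ℤ)),
      ∫ θ, cexp (EH b R I) (pin (S : Set (ℤ × ℤ)) 0 θ) ∂muInf =
        ZE b R (I \ (S : Set (ℤ × ℤ))) := by
    intro R S
    unfold ZE
    refine integral_congr_ae (Eventually.of_forall fun θ => ?_)
    show Real.exp _ = Real.exp _
    rw [EH_pin]
  simp only [e] at hs
  have hc := collar hb R0 I hLL f hf hL hL'
  -- factorizations
  have nLL : ∀ v, v ∈ L → v ∉ L' := fun v h1 h2 => Finset.disjoint_left.1 hLL h1 h2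
  have s1 : ZE b (R0 ∪ El) (I \ (L : Set (ℤ × ℤ))) =
      ZE b R0 (I \ (L : Set (ℤ × ℤ))) * ZE b El (I \ (L : Set (ℤ × ℤ))) :=
    ZE_split h01 fun v hv h1 h2 => hv.2 (hl v hv.1 h2 (Or.inl h1))
  have s2 : ZE b (R0 ∪ Er) (I \ (L' : Set (ℤ × ℤ))) =
      ZE b R0 (I \ (L' : Set (ℤ × ℤ))) * ZE b Er (I \ (L' : Set (ℤ × ℤ))) :=
    ZE_split h02 fun v hv h1 h2 => hv.2 (hr v hv.1 h2 (Or.inl h1))
  have s3 : ZE b (R0 ∪ El ∪ Er) (I \ ((L ∪ L' : Finset (ℤ × ℤ)) : Set (ℤ × ℤ))) =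
      ZE b R0 (I \ ((L ∪ L' : Finset (ℤ × ℤ)) : Set (ℤ × ℤ))) *
        ZE b El (I \ (L : Set (ℤ × ℤ))) * ZE b Er (I \ (L' : Set (ℤ × ℤ))) := by
    rw [ZE_split hdj, ZE_split h01]
    · congr 1
      · congr 1
        unfold ZE
        rw [EH_congr b El (I := I \ ((L ∪ L' : Finset (ℤ × ℤ)) : Set (ℤ × ℤ)))
          (I' := I \ (L : Set (ℤ × ℤ)))]
        intro v hv
        constructor
        · rintro ⟨h1, h2⟩
          exact ⟨h1, fun h3 => h2 (by simp only [Finset.coe_union]; exact Or.inl h3)⟩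
        · rintro ⟨h1, h2⟩
          refine ⟨h1, fun h3 => ?_⟩
          simp only [Finset.coe_union, Set.mem_union, Finset.mem_coe] at h3
          rcases h3 with h3 | h3
          · exact h2 h3
          · exact h2 (hl v h1 hv (Or.inr (Or.inr h3)))
      · unfold ZE
        rw [EH_congr b Er (I := I \ ((L ∪ L' : Finset (ℤ × ℤ)) : Set (ℤ × ℤ)))
          (I' := I \ (L' : Set (ℤ × ℤ)))]
        intro v hv
        constructor
        · rintro ⟨h1, h2⟩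
          exact ⟨h1, fun h3 => h2 (by simp only [Finset.coe_union]; exact Or.inr h3)⟩
        · rintro ⟨h1, h2⟩
          refine ⟨h1, fun h3 => ?_⟩
          simp only [Finset.coe_union, Set.mem_union, Finset.mem_coe] at h3
          rcases h3 with h3 | h3
          · exact h2 (hr v h1 hv (Or.inr (Or.inr h3)))
          · exact h2 h3
    · rintro v ⟨h1, h2⟩ h3 h4
      exact h2 (by
        simp only [Finset.coe_union, Set.mem_union, Finset.mem_coe]
        exact Or.inl (hl v h1 h4 (Or.inl h3)))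
    · rintro v ⟨h1, h2⟩ h3 h4
      apply h2
      simp only [Finset.coe_union, Set.mem_union, Finset.mem_coe]
      obtain ⟨c, hc1, t, ht⟩ := h3
      rcases Finset.mem_union.1 hc1 with h5 | h5
      · exact Or.inr (hr v h1 h4 (Or.inl ⟨c, h5, t, ht⟩))
      · exact Or.inr (hr v h1 h4 (Or.inr (Or.inl ⟨c, h5, t, ht⟩)))
  rw [s1, s2, s3] at hs
  have p := fun R X => ZE_pos b R X
  set A := ZE b El (I \ (L : Set (ℤ × ℤ))) with hA
  set B := ZE b Er (I \ (L' : Set (ℤ × ℤ))) with hB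
  set x1 := ZE b R0 (I \ (L : Set (ℤ × ℤ))) with hx1
  set x2 := ZE b R0 (I \ (L' : Set (ℤ × ℤ))) with hx2
  set x3 := ZE b R0 (I \ ((L ∪ L' : Finset (ℤ × ℤ)) : Set (ℤ × ℤ))) with hx3
  set x0 := ZE b R0 I with hx0
  set y := ZE b (R0 ∪ El ∪ Er) (I \ ((La ∪ La' : Finset (ℤ × ℤ)) : Set (ℤ × ℤ))) with hy
  set y1 := ZE b (R0 ∪ El) (I \ (La : Set (ℤ × ℤ))) with hy1
  set y2 := ZE b (R0 ∪ Er) (I \ (La' : Set (ℤ × ℤ))) with hy2
  have pA : 0 < A := p _ _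
  have pB : 0 < B := p _ _
  have p1 : 0 < x1 := p _ _
  have p2 : 0 < x2 := p _ _
  have p0 : 0 < x0 := p _ _
  have py1 : 0 < y1 := p _ _
  have py2 : 0 < y2 := p _ _
  have h5 : y * x1 * x2 ≤ x3 * y1 * y2 := by
    have : (A * B) * (y * x1 * x2) ≤ (A * B) * (x3 * y1 * y2) := by
      calc (A * B) * (y * x1 * x2) = y * (x1 * A) * (x2 * B) := by ring
        _ ≤ x3 * A * B * y1 * y2 := hs
        _ = _ := by ring
    exact le_of_mul_le_mul_left this (mul_pos pA pB)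
  have h6 : (x1 * x2) * (y * x0) ≤ (x1 * x2) *
      (Real.exp (∑ e : KR R0, b / 2 * dT R0 f e ^ 2) * (y1 * y2)) := by
    calc (x1 * x2) * (y * x0) = (y * x1 * x2) * x0 := by ring
      _ ≤ (x3 * y1 * y2) * x0 := mul_le_mul_of_nonneg_right h5 p0.le
      _ = (x3 * x0) * (y1 * y2) := by ring
      _ ≤ (Real.exp (∑ e : KR R0, b / 2 * dT R0 f e ^ 2) * (x1 * x2)) * (y1 * y2) :=
          mul_le_mul_of_nonneg_right hc (mul_pos py1 py2).le
      _ = _ := by ring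
  exact le_of_mul_le_mul_left h6 (mul_pos p1 p2)

end Vale.Agent.P159.T1.H42
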