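import Vale.Agent.P159.T1.H42.Kpv

/-!
The two cones: products `f x * f y` (Ginibre) and monomials in the cosines and sines of the spins
(Kunz, Pfister, Vuillermot).
-/

open MeasureTheory Filter Topology
open scoped BigOperators Nat

set_option linter.all false

namespace Vale.Agent.P159.T1.H42

open Vale.Agent.P159

section mk

variable {G : Type*} [AddCommGroup G] [TopologicalSpace G] [IsTopologicalAddGroup G]
  [CompactSpace G]

/-- the closed semiring generated by a monoid -/
noncomputable def mkPos (M : Submonoid C(G × G, ℝ))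
    (hM : ∀ r : ℝ, 0 ≤ r → ContinuousMap.const (G × G) r ∈ M) : Pos G where
  S := (Subsemiring.closure (M : Set C(G × G, ℝ))).topologicalClosure
  closed := Subsemiring.isClosed_topologicalClosure _
  const := fun r hr => Subsemiring.le_topologicalClosure _ (Subsemiring.subset_closure (hM r hr))

lemma mem_mkPos {M : Submonoid C(G × G, ℝ)}
    {hM : ∀ r : ℝ, 0 ≤ r → ContinuousMap.const (G × G) r ∈ M} {f : C(G × G, ℝ)} (hf : f ∈ M) :
    f ∈ (mkPos M hM).S :=
  Subsemiring.le_topologicalClosure _ (Subsemiring.subset_closure hf)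

lemma continuous_int {X : Type*} [TopologicalSpace X] [CompactSpace X] [MeasurableSpace X]
    [BorelSpace X] [SecondCountableTopology X] (ν : Measure X) [IsProbabilityMeasure ν] :
    Continuous fun f : C(X, ℝ) => ∫ x, f x ∂ν := by
  have hI : ∀ f : C(X, ℝ), Integrable (fun x => f x) ν := fun f => cint f.continuous
  refine LipschitzWith.continuous (K := 1) (LipschitzWith.of_dist_le_mul fun f g => ?_)
  rw [Real.dist_eq, ← integral_sub (hI f) (hI g), NNReal.coe_one, one_mul]
  have h1 := norm_integral_le_of_norm_le_const (μ := ν) (f := fun x => f x - g x) (C := dist f g)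
    (Eventually.of_forall fun x => by
      rw [← dist_eq_norm]
      exact ContinuousMap.dist_apply_le_dist x)
  simpa using h1

theorem mkPos_int [SecondCountableTopology G] [MeasurableSpace G] [BorelSpace G]
    {ν : Measure (G × G)} [IsProbabilityMeasure ν] {M : Submonoid C(G × G, ℝ)}
    (hM : ∀ r : ℝ, 0 ≤ r → ContinuousMap.const (G × G) r ∈ M)
    (h : ∀ f ∈ M, 0 ≤ ∫ p, f p ∂ν) : ∀ f ∈ (mkPos M hM).S, 0 ≤ ∫ p, f p ∂ν := by
  intro f hf
  have h1 : IsClosed {f : C(G × G, ℝ) | 0 ≤ ∫ p, f p ∂ν} :=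
    isClosed_le continuous_const (continuous_int ν)
  have h2 : ((Subsemiring.closure (M : Set C(G × G, ℝ)) : Subsemiring _) : Set C(G × G, ℝ)) ⊆
      {f : C(G × G, ℝ) | 0 ≤ ∫ p, f p ∂ν} := by
    intro g hg
    rw [SetLike.mem_coe, Subsemiring.mem_closure_iff, Submonoid.closure_eq] at hg
    induction hg using AddSubmonoid.closure_induction with
    | mem x hx => exact h x hx
    | zero => simp
    | add x y _ _ hx hy =>
      simp only [Set.mem_setOf_eq, ContinuousMap.coe_add, Pi.add_apply] at hx hy ⊢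
      rw [integral_add (cint x.continuous) (cint y.continuous)]
      exact add_nonneg hx hy
  exact closure_minimal h2 h1 hf

/-- products `f x * f y` -/
def MG (G : Type*) [AddCommGroup G] [TopologicalSpace G] [IsTopologicalAddGroup G]
    [CompactSpace G] : Submonoid C(G × G, ℝ) where
  carrier := {F | ∃ (r : ℝ) (f : C(G, ℝ)), 0 ≤ r ∧ ∀ p, F p = r * (f p.1 * f p.2)}
  mul_mem' := by
    rintro F F' ⟨r, f, hr, h⟩ ⟨r', f', hr', h'⟩
    refine ⟨r * r', f * f', mul_nonneg hr hr', fun p => ?_⟩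
    simp only [ContinuousMap.coe_mul, Pi.mul_apply, h, h']
    ring
  one_mem' := ⟨1, 1, zero_le_one, fun p => by simp⟩

lemma MG_const (r : ℝ) (hr : 0 ≤ r) : ContinuousMap.const (G × G) r ∈ MG G :=
  ⟨r, 1, hr, fun p => by simp⟩

/-- Ginibre's cone -/
noncomputable def PG (G : Type*) [AddCommGroup G] [TopologicalSpace G] [IsTopologicalAddGroup G]
    [CompactSpace G] : Pos G := mkPos (MG G) MG_const

theorem PG_int [SecondCountableTopology G] [MeasurableSpace G] [BorelSpace G]
    (μ : Measure G) [IsProbabilityMeasure μ] :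
    ∀ f ∈ (PG G).S, 0 ≤ ∫ p, f p ∂(μ.prod μ) := by
  refine mkPos_int _ ?_
  rintro F ⟨r, f, hr, h⟩
  simp_rw [h]
  rw [integral_const_mul, integral_prod_mul (fun x => f x) (fun x => f x)]
  exact mul_nonneg hr (mul_self_nonneg _)

/-- the cosine of a character -/
def cc (χ : Chr G) : C(G, ℝ) := ⟨χ.c, χ.cont_c⟩

/-- the sine of a character -/
def ss (χ : Chr G) : C(G, ℝ) := ⟨χ.s, χ.cont_s⟩

@[simp] lemma cc_apply (χ : Chr G) (x : G) : cc χ x = χ.c x := rfl
@[simp] lemma ss_apply (χ : Chr G) (x : G) : ss χ x = χ.s x := rfl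

lemma c_sub' (χ : Chr G) (x y : G) : χ.c (x - y) = χ.c x * χ.c y + χ.s x * χ.s y := by
  rw [sub_eq_add_neg, χ.c_add, χ.c_neg, χ.s_neg]; ring

lemma s_sub' (χ : Chr G) (x y : G) : χ.s (x - y) = χ.s x * χ.c y - χ.c x * χ.s y := by
  rw [sub_eq_add_neg, χ.s_add, χ.c_neg, χ.s_neg]; ring

lemma PG_cos (χ : Chr G) : cc χ ∈ (PG G).cosS := by
  rw [Pos.mem_cosS]
  constructor
  · refine mem_mkPos ⟨2, cc χ, zero_le_two, fun p => ?_⟩
    simp only [ContinuousMap.coe_add, Pi.add_apply, pl_apply, mi_apply, cc_apply, χ.c_add, c_sub']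
    ring
  · refine mem_mkPos ⟨2, ss χ, zero_le_two, fun p => ?_⟩
    simp only [ContinuousMap.coe_sub, Pi.sub_apply, pl_apply, mi_apply, cc_apply, χ.c_add, c_sub',
      ss_apply]
    ring

end mk

section spins

/-- the spin at `v` as a character -/
noncomputable def sp (v : ℤ × ℤ) : Chr Ginf where
  c θ := cosT (θ v)
  s θ := sinT (θ v)
  cont_c := cont_cos.comp (continuous_apply v)
  cont_s := cont_sin.comp (continuous_apply v)
  c_add x y := Real.Angle.cos_add _ _
  s_add x y := Real.Angle.sin_add _ _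
  norm_sq x := Real.Angle.cos_sq_add_sin_sq _

/-- monomials in the spins -/
noncomputable def mon (a b : (ℤ × ℤ) →₀ ℕ) : C(Ginf, ℝ) :=
  a.prod (fun v n => cc (sp v) ^ n) * b.prod (fun v n => ss (sp v) ^ n)

lemma mon_mul (a b a' b' : (ℤ × ℤ) →₀ ℕ) : mon a b * mon a' b' = mon (a + a') (b + b') := by
  unfold mon
  rw [Finsupp.prod_add_index' (fun _ => pow_zero _) (fun _ _ _ => pow_add _ _ _),
    Finsupp.prod_add_index' (fun _ => pow_zero _) (fun _ _ _ => pow_add _ _ _)]
  ring

lemma mon_zero : mon 0 0 = 1 := by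
  unfold mon
  simp

lemma mon_c (v : ℤ × ℤ) : mon (Finsupp.single v 1) 0 = cc (sp v) := by
  unfold mon
  rw [Finsupp.prod_single_index (h := fun v n => cc (sp v) ^ n) (pow_zero _)]
  simp

lemma mon_s (v : ℤ × ℤ) : mon 0 (Finsupp.single v 1) = ss (sp v) := by
  unfold mon
  rw [Finsupp.prod_single_index (h := fun v n => ss (sp v) ^ n) (pow_zero _)]
  simp

lemma mon_apply (a b : (ℤ × ℤ) →₀ ℕ) (θ : Ginf) :
    mon a b θ = (∏ v ∈ a.support, cosT (θ v) ^ a v) * ∏ v ∈ b.support, sinT (θ v) ^ b v := by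
  unfold mon Finsupp.prod
  simp [sp]

lemma prod_sign (a : (ℤ × ℤ) →₀ ℕ) (v : ℤ × ℤ) :
    ∏ w ∈ a.support, (if w = v then (-1 : ℝ) else 1) ^ a w = (-1) ^ a v := by
  rw [Finset.prod_eq_single v]
  · simp
  · intro w _ hw
    simp [hw]
  · intro hv
    rw [Finsupp.notMem_support_iff] at hv
    simp [hv]

lemma mon_sign (a b : (ℤ × ℤ) →₀ ℕ) (v : ℤ × ℤ) {θ θ' : Ginf} {ε δ : ℝ}
    (hc : ∀ w, w ≠ v → θ' w = θ w) (h1 : cosT (θ' v) = ε * cosT (θ v))
    (h2 : sinT (θ' v) = δ * sinT (θ v)) :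
    mon a b θ' = ε ^ a v * δ ^ b v * mon a b θ := by
  rw [mon_apply, mon_apply]
  have e : ∀ (f : T → ℝ) (r : ℝ) (hr : f (θ' v) = r * f (θ v)) (a : (ℤ × ℤ) →₀ ℕ),
      ∏ w ∈ a.support, f (θ' w) ^ a w = r ^ a v * ∏ w ∈ a.support, f (θ w) ^ a w := by
    intro f r hr a
    have h3 : ∀ w ∈ a.support, f (θ' w) ^ a w = (if w = v then r else 1) ^ a w * f (θ w) ^ a w := by
      intro w _
      by_cases hw : w = v
      · subst hw
        simp [hr, mul_pow]
      · simp [hw, hc w hw]
    rw [Finset.prod_congr rfl h3, Finset.prod_mul_distrib]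
    congr 1
    rw [Finset.prod_eq_single v]
    · simp
    · intro w _ hw
      simp [hw]
    · intro hv
      rw [Finsupp.notMem_support_iff] at hv
      simp [hv]
  rw [e cosT ε h1, e sinT δ h2]
  ring

open Classical in
/-- change the sign of one spin -/
noncomputable def flipv (v : ℤ × ℤ) : Ginf →+ Ginf where
  toFun θ := fun w => if w = v then -θ w else θ w
  map_zero' := by
    funext w
    simp
  map_add' x y := by
    funext w
    by_cases h : w = v <;> simp [h]
    abel

lemma flipv_self (v : ℤ × ℤ) (θ : Ginf) : flipv v θ v = -θ v := by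
  simp [flipv]

lemma flipv_ne {v w : ℤ × ℤ} (h : w ≠ v) (θ : Ginf) : flipv v θ w = θ w := by
  simp [flipv, h]

lemma flipv_mp (v : ℤ × ℤ) : MeasurePreserving (flipv v) muInf muInf := by
  apply AddMonoidHom.measurePreserving
  · refine continuous_pi fun w => ?_
    by_cases h : w = v
    · have : (fun θ : Ginf => flipv v θ w) = fun θ => -θ w := by
        funext θ; simp [flipv, h]
      rw [this]
      exact (continuous_apply w).neg
    · have : (fun θ : Ginf => flipv v θ w) = fun θ => θ w := by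
        funext θ; simp [flipv, h]
      rw [this]
      exact continuous_apply w
  · intro θ
    refine ⟨flipv v θ, ?_⟩
    funext w
    by_cases h : w = v
    · subst h
      rw [flipv_self, flipv_self, neg_neg]
    · rw [flipv_ne h, flipv_ne h]
  · simp

theorem mon_int (a b : (ℤ × ℤ) →₀ ℕ) : 0 ≤ ∫ θ, mon a b θ ∂muInf := by
  have key : ∀ R : Ginf → Ginf, Measurable R → MeasurePreserving R muInf muInf →
      (∀ θ, mon a b (R θ) = - mon a b θ) → ∫ θ, mon a b θ ∂muInf = 0 := by
    intro R hR0 hR h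
    have h1 := integral_map (μ := muInf) hR.measurable.aemeasurable
      (f := fun θ => mon a b θ) (mon a b).continuous.aestronglyMeasurable
    rw [hR.map_eq] at h1
    simp_rw [h] at h1
    rw [integral_neg] at h1
    linarith
  by_cases h1 : ∃ v, Odd (b v)
  · obtain ⟨v, hv⟩ := h1
    refine (key (flipv v) (flipv_mp v).measurable (flipv_mp v) fun θ => ?_).ge
    rw [mon_sign a b v (ε := 1) (δ := -1) (fun w hw => flipv_ne hw θ)
      (by rw [flipv_self, cosT_neg, one_mul]) (by rw [flipv_self, sinT_neg]; ring),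
      hv.neg_one_pow, one_pow]
    ring
  · by_cases h2 : ∃ v, Odd (a v)
    · obtain ⟨v, hv⟩ := h2
      have hb : Even (b v) := by
        by_contra hne
        exact h1 ⟨v, Nat.not_even_iff_odd.1 hne⟩
      have hmp : MeasurePreserving (fun θ : Ginf => (Pi.single v ((Real.pi : ℝ) : T) : Ginf) + θ)
          muInf muInf := measurePreserving_add_left muInf _
      refine (key _ hmp.measurable hmp fun θ => ?_).ge
      rw [mon_sign a b v (θ := θ) (ε := -1) (δ := -1) (fun w hw => by simp [hw])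
        (by
          show cosT (((Pi.single v ((Real.pi : ℝ) : T) : Ginf) + θ) v) = _
          rw [Pi.add_apply, Pi.single_eq_same, add_comm]
          exact (Real.Angle.cos_add_pi (θ v)).trans (neg_one_mul _).symm)
        (by
          show sinT (((Pi.single v ((Real.pi : ℝ) : T) : Ginf) + θ) v) = _
          rw [Pi.add_apply, Pi.single_eq_same, add_comm]
          exact (Real.Angle.sin_add_pi (θ v)).trans (neg_one_mul _).symm), hv.neg_one_pow, hb.neg_one_pow]
      ring
    · refine integral_nonneg fun θ => ?_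
      show 0 ≤ mon a b θ
      rw [mon_apply]
      have ha : ∀ v, Even (a v) := fun v => by
        by_contra hne
        exact h2 ⟨v, Nat.not_even_iff_odd.1 hne⟩
      have hb : ∀ v, Even (b v) := fun v => by
        by_contra hne
        exact h1 ⟨v, Nat.not_even_iff_odd.1 hne⟩
      exact mul_nonneg (Finset.prod_nonneg fun v _ => (ha v).pow_nonneg _)
        (Finset.prod_nonneg fun v _ => (hb v).pow_nonneg _)

/-- products of monomials of the two replicas -/
noncomputable def MM' : Submonoid C(Ginf × Ginf, ℝ) where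
  carrier := {F | ∃ (r : ℝ) (a b a' b' : (ℤ × ℤ) →₀ ℕ), 0 ≤ r ∧
    ∀ p, F p = r * (mon a b p.1 * mon a' b' p.2)}
  mul_mem' := by
    rintro F F' ⟨r, a, b, c, d, hr, h⟩ ⟨r', a', b', c', d', hr', h'⟩
    refine ⟨r * r', a + a', b + b', c + c', d + d', mul_nonneg hr hr', fun p => ?_⟩
    rw [← mon_mul, ← mon_mul]
    simp only [ContinuousMap.coe_mul, Pi.mul_apply, h, h']
    ring
  one_mem' := ⟨1, 0, 0, 0, 0, zero_le_one, fun p => by simp [mon_zero]⟩

lemma MM'_const (r : ℝ) (hr : 0 ≤ r) : ContinuousMap.const (Ginf × Ginf) r ∈ MM' :=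
  ⟨r, 0, 0, 0, 0, hr, fun p => by simp [mon_zero]⟩

/-- the cone of Kunz, Pfister and Vuillermot -/
noncomputable def PM : Pos Ginf := mkPos MM' MM'_const

theorem PM_int : ∀ f ∈ PM.S, 0 ≤ ∫ p, f p ∂(muInf.prod muInf) := by
  refine mkPos_int _ ?_
  rintro F ⟨r, a, b, a', b', hr, h⟩
  simp_rw [h]
  rw [integral_const_mul, integral_prod_mul (fun x => mon a b x) (fun x => mon a' b' x)]
  exact mul_nonneg hr (mul_nonneg (mon_int _ _) (mon_int _ _))

/-- functions of the first replica -/
noncomputable def fs (f : C(Ginf, ℝ)) : C(Ginf × Ginf, ℝ) := ⟨fun p => f p.1, by fun_prop⟩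

/-- functions of the second replica -/
noncomputable def sn (f : C(Ginf, ℝ)) : C(Ginf × Ginf, ℝ) := ⟨fun p => f p.2, by fun_prop⟩

@[simp] lemma fs_apply (f : C(Ginf, ℝ)) (p : Ginf × Ginf) : fs f p = f p.1 := rfl
@[simp] lemma sn_apply (f : C(Ginf, ℝ)) (p : Ginf × Ginf) : sn f p = f p.2 := rfl

lemma fs_c (v : ℤ × ℤ) : fs (cc (sp v)) ∈ PM.S :=
  mem_mkPos ⟨1, Finsupp.single v 1, 0, 0, 0, zero_le_one, fun p => by simp [mon_c, mon_zero]⟩

lemma fs_s (v : ℤ × ℤ) : fs (ss (sp v)) ∈ PM.S :=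
  mem_mkPos ⟨1, 0, Finsupp.single v 1, 0, 0, zero_le_one, fun p => by simp [mon_s, mon_zero]⟩

lemma sn_c (v : ℤ × ℤ) : sn (cc (sp v)) ∈ PM.S :=
  mem_mkPos ⟨1, 0, 0, Finsupp.single v 1, 0, zero_le_one, fun p => by simp [mon_c, mon_zero]⟩

lemma sn_s (v : ℤ × ℤ) : sn (ss (sp v)) ∈ PM.S :=
  mem_mkPos ⟨1, 0, 0, 0, Finsupp.single v 1, zero_le_one, fun p => by simp [mon_s, mon_zero]⟩

lemma PM_cos (v : ℤ × ℤ) : cc (sp v) ∈ PM.cosS := by
  rw [Pos.mem_cosS]
  constructor
  · have e : pl (cc (sp v)) + mi (cc (sp v)) =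
        ContinuousMap.const (Ginf × Ginf) (2 : ℝ) * (fs (cc (sp v)) * sn (cc (sp v))) := by
      ext p
      simp only [ContinuousMap.coe_add, ContinuousMap.coe_mul, Pi.add_apply, Pi.mul_apply,
        pl_apply, mi_apply, cc_apply, (sp v).c_add, c_sub', ContinuousMap.const_apply, fs_apply,
        sn_apply]
      ring
    rw [e]
    exact PM.S.mul_mem (PM.const _ zero_le_two) (PM.S.mul_mem (fs_c v) (sn_c v))
  · have e : mi (cc (sp v)) - pl (cc (sp v)) =
        ContinuousMap.const (Ginf × Ginf) (2 : ℝ) * (fs (ss (sp v)) * sn (ss (sp v))) := by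
      ext p
      simp only [ContinuousMap.coe_sub, ContinuousMap.coe_mul, Pi.sub_apply, Pi.mul_apply,
        pl_apply, mi_apply, cc_apply, ss_apply, (sp v).c_add, c_sub', ContinuousMap.const_apply,
        fs_apply, sn_apply]
      ring
    rw [e]
    exact PM.S.mul_mem (PM.const _ zero_le_two) (PM.S.mul_mem (fs_s v) (sn_s v))

lemma PM_sin (v : ℤ × ℤ) : ss (sp v) ∈ PM.sinS := by
  rw [Pos.mem_sinS]
  constructor
  · have e : pl (ss (sp v)) + mi (ss (sp v)) =
        ContinuousMap.const (Ginf × Ginf) (2 : ℝ) * (fs (ss (sp v)) * sn (cc (sp v))) := by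
      ext p
      simp only [ContinuousMap.coe_add, ContinuousMap.coe_mul, Pi.add_apply, Pi.mul_apply,
        pl_apply, mi_apply, cc_apply, ss_apply, (sp v).s_add, s_sub', ContinuousMap.const_apply,
        fs_apply, sn_apply]
      ring
    rw [e]
    exact PM.S.mul_mem (PM.const _ zero_le_two) (PM.S.mul_mem (fs_s v) (sn_c v))
  · have e : pl (ss (sp v)) - mi (ss (sp v)) =
        ContinuousMap.const (Ginf × Ginf) (2 : ℝ) * (fs (cc (sp v)) * sn (ss (sp v))) := by
      ext p
      simp only [ContinuousMap.coe_sub, ContinuousMap.coe_mul, Pi.sub_apply, Pi.mul_apply,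
        pl_apply, mi_apply, cc_apply, ss_apply, (sp v).s_add, s_sub', ContinuousMap.const_apply,
        fs_apply, sn_apply]
      ring
    rw [e]
    exact PM.S.mul_mem (PM.const _ zero_le_two) (PM.S.mul_mem (fs_c v) (sn_s v))

end spins

end Vale.Agent.P159.T1.H42
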