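import Vale.Agent.P159.Bdl.B4
import Mathlib.Topology.ContinuousMap.Compact
import Mathlib.Analysis.Normed.Algebra.Exponential
import Mathlib.MeasureTheory.Integral.PeakFunction

/-!
Correlation inequalities of Ginibre and of Kunz, Pfister and Vuillermot for closed cones of
functions of two replicas.
-/

open MeasureTheory Filter Topology
open scoped BigOperators Nat

set_option linter.all false

namespace Vale.Agent.P159.T1.H42

open Vale.Agent.P159

section expmem

variable {X : Type*} [TopologicalSpace X] [CompactSpace X]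

/-- the exponential as a continuous function -/
noncomputable def cexp (f : C(X, ℝ)) : C(X, ℝ) := ⟨fun x => Real.exp (f x), by fun_prop⟩

@[simp] lemma cexp_apply (f : C(X, ℝ)) (x : X) : cexp f x = Real.exp (f x) := rfl

lemma cexp_add (f g : C(X, ℝ)) : cexp (f + g) = cexp f * cexp g := by
  ext x
  simp [Real.exp_add]

/-- a closed semiring which contains the constants `≥ 0` is closed under `exp` -/
theorem exp_mem {S : Subsemiring C(X, ℝ)} (hS : IsClosed (S : Set C(X, ℝ)))
    (hc : ∀ r : ℝ, 0 ≤ r → ContinuousMap.const X r ∈ S) {f : C(X, ℝ)} (hf : f ∈ S) :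
    cexp f ∈ S := by
  have h1 := NormedSpace.exp_series_hasSum_exp' (𝕂 := ℝ) f
  have h2 : NormedSpace.exp f = cexp f := by
    ext x
    have h3 := (ContinuousMap.evalCLM ℝ x).hasSum h1
    have h4 := NormedSpace.exp_series_hasSum_exp' (𝕂 := ℝ) (f x)
    rw [← Real.exp_eq_exp_ℝ] at h4
    have h5 : (fun n => (ContinuousMap.evalCLM ℝ x) ((n !⁻¹ : ℝ) • f ^ n)) =
        fun n => (n !⁻¹ : ℝ) • (f x) ^ n := by
      funext n
      simp
    have h6 := h3.unique (by rw [h5]; exact h4)
    exact h6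
  rw [← h2]
  refine hS.mem_of_tendsto h1 (Eventually.of_forall fun s => ?_)
  refine S.sum_mem fun n _ => ?_
  have h7 : (n !⁻¹ : ℝ) • f ^ n = ContinuousMap.const X (n !⁻¹ : ℝ) * f ^ n := by
    ext x; simp
  rw [h7]
  exact S.mul_mem (hc _ (by positivity)) (S.pow_mem hf n)

end expmem

section cones

variable {G : Type*} [AddCommGroup G] [TopologicalSpace G] [IsTopologicalAddGroup G]
  [CompactSpace G]

/-- `f (x + y)` -/
def pl (f : C(G, ℝ)) : C(G × G, ℝ) := ⟨fun p => f (p.1 + p.2), by fun_prop⟩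

/-- `f (x - y)` -/
def mi (f : C(G, ℝ)) : C(G × G, ℝ) := ⟨fun p => f (p.1 - p.2), by fun_prop⟩

@[simp] lemma pl_apply (f : C(G, ℝ)) (p : G × G) : pl f p = f (p.1 + p.2) := rfl
@[simp] lemma mi_apply (f : C(G, ℝ)) (p : G × G) : mi f p = f (p.1 - p.2) := rfl

lemma pl_cont : Continuous (pl : C(G, ℝ) → C(G × G, ℝ)) :=
  ContinuousMap.continuous_precomp (⟨fun p : G × G => p.1 + p.2, by fun_prop⟩ : C(G × G, G))

lemma mi_cont : Continuous (mi : C(G, ℝ) → C(G × G, ℝ)) :=
  ContinuousMap.continuous_precomp (⟨fun p : G × G => p.1 - p.2, by fun_prop⟩ : C(G × G, G))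

/-- a closed semiring of functions of two replicas with nonnegative constants -/
structure Pos (G : Type*) [AddCommGroup G] [TopologicalSpace G] [IsTopologicalAddGroup G]
    [CompactSpace G] where
  S : Subsemiring C(G × G, ℝ)
  closed : IsClosed (S : Set C(G × G, ℝ))
  const : ∀ r : ℝ, 0 ≤ r → ContinuousMap.const (G × G) r ∈ S

variable (P : Pos G)

/-- weights -/
def Pos.Even (H : C(G, ℝ)) : Prop := pl H + mi H ∈ P.S

/-- functions of cosine type -/
noncomputable def Pos.cosS : Subsemiring C(G, ℝ) where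
  carrier := {f | pl f + mi f ∈ P.S ∧ mi f - pl f ∈ P.S}
  mul_mem' := by
    rintro f g ⟨h1, h2⟩ ⟨h3, h4⟩
    constructor
    · have e : pl (f * g) + mi (f * g) = ContinuousMap.const (G × G) (1 / 2 : ℝ) *
          ((pl f + mi f) * (pl g + mi g) + (mi f - pl f) * (mi g - pl g)) := by
        ext p
        simp only [ContinuousMap.coe_add, ContinuousMap.coe_mul, Pi.add_apply, Pi.mul_apply,
          ContinuousMap.coe_sub, Pi.sub_apply, pl_apply, mi_apply, ContinuousMap.const_apply]
        ring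
      rw [e]
      exact P.S.mul_mem (P.const _ (by norm_num))
        (P.S.add_mem (P.S.mul_mem h1 h3) (P.S.mul_mem h2 h4))
    · have e : mi (f * g) - pl (f * g) = ContinuousMap.const (G × G) (1 / 2 : ℝ) *
          ((mi f - pl f) * (pl g + mi g) + (pl f + mi f) * (mi g - pl g)) := by
        ext p
        simp only [ContinuousMap.coe_add, ContinuousMap.coe_mul, Pi.add_apply, Pi.mul_apply,
          ContinuousMap.coe_sub, Pi.sub_apply, pl_apply, mi_apply, ContinuousMap.const_apply]
        ring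
      rw [e]
      exact P.S.mul_mem (P.const _ (by norm_num))
        (P.S.add_mem (P.S.mul_mem h2 h3) (P.S.mul_mem h1 h4))
  one_mem' := by
    constructor
    · have e : pl (1 : C(G, ℝ)) + mi 1 = ContinuousMap.const (G × G) (2 : ℝ) := by
        ext p; simp; norm_num
      rw [e]
      exact P.const _ (by norm_num)
    · have e : mi (1 : C(G, ℝ)) - pl 1 = 0 := by
        ext p; simp
      rw [e]
      exact P.S.zero_mem
  add_mem' := by
    rintro f g ⟨h1, h2⟩ ⟨h3, h4⟩
    constructor
    · have e : pl (f + g) + mi (f + g) = (pl f + mi f) + (pl g + mi g) := by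
        ext p; simp; ring
      rw [e]
      exact P.S.add_mem h1 h3
    · have e : mi (f + g) - pl (f + g) = (mi f - pl f) + (mi g - pl g) := by
        ext p; simp; ring
      rw [e]
      exact P.S.add_mem h2 h4
  zero_mem' := by
    constructor
    · have e : pl (0 : C(G, ℝ)) + mi 0 = 0 := by ext p; simp
      rw [e]; exact P.S.zero_mem
    · have e : mi (0 : C(G, ℝ)) - pl 0 = 0 := by ext p; simp
      rw [e]; exact P.S.zero_mem

/-- functions of sine type -/
noncomputable def Pos.sinS : Subsemiring C(G, ℝ) where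
  carrier := {f | pl f + mi f ∈ P.S ∧ pl f - mi f ∈ P.S}
  mul_mem' := by
    rintro f g ⟨h1, h2⟩ ⟨h3, h4⟩
    constructor
    · have e : pl (f * g) + mi (f * g) = ContinuousMap.const (G × G) (1 / 2 : ℝ) *
          ((pl f + mi f) * (pl g + mi g) + (pl f - mi f) * (pl g - mi g)) := by
        ext p
        simp only [ContinuousMap.coe_add, ContinuousMap.coe_mul, Pi.add_apply, Pi.mul_apply,
          ContinuousMap.coe_sub, Pi.sub_apply, pl_apply, mi_apply, ContinuousMap.const_apply]
        ring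
      rw [e]
      exact P.S.mul_mem (P.const _ (by norm_num))
        (P.S.add_mem (P.S.mul_mem h1 h3) (P.S.mul_mem h2 h4))
    · have e : pl (f * g) - mi (f * g) = ContinuousMap.const (G × G) (1 / 2 : ℝ) *
          ((pl f - mi f) * (pl g + mi g) + (pl f + mi f) * (pl g - mi g)) := by
        ext p
        simp only [ContinuousMap.coe_add, ContinuousMap.coe_mul, Pi.add_apply, Pi.mul_apply,
          ContinuousMap.coe_sub, Pi.sub_apply, pl_apply, mi_apply, ContinuousMap.const_apply]
        ring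
      rw [e]
      exact P.S.mul_mem (P.const _ (by norm_num))
        (P.S.add_mem (P.S.mul_mem h2 h3) (P.S.mul_mem h1 h4))
  one_mem' := by
    constructor
    · have e : pl (1 : C(G, ℝ)) + mi 1 = ContinuousMap.const (G × G) (2 : ℝ) := by
        ext p; simp; norm_num
      rw [e]
      exact P.const _ (by norm_num)
    · have e : pl (1 : C(G, ℝ)) - mi 1 = 0 := by
        ext p; simp
      rw [e]
      exact P.S.zero_mem
  add_mem' := by
    rintro f g ⟨h1, h2⟩ ⟨h3, h4⟩
    constructor
    · have e : pl (f + g) + mi (f + g) = (pl f + mi f) + (pl g + mi g) := by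
        ext p; simp; ring
      rw [e]
      exact P.S.add_mem h1 h3
    · have e : pl (f + g) - mi (f + g) = (pl f - mi f) + (pl g - mi g) := by
        ext p; simp; ring
      rw [e]
      exact P.S.add_mem h2 h4
  zero_mem' := by
    constructor
    · have e : pl (0 : C(G, ℝ)) + mi 0 = 0 := by ext p; simp
      rw [e]; exact P.S.zero_mem
    · have e : pl (0 : C(G, ℝ)) - mi 0 = 0 := by ext p; simp
      rw [e]; exact P.S.zero_mem

lemma Pos.mem_cosS {f : C(G, ℝ)} :
    f ∈ P.cosS ↔ pl f + mi f ∈ P.S ∧ mi f - pl f ∈ P.S := Iff.rfl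

lemma Pos.mem_sinS {f : C(G, ℝ)} :
    f ∈ P.sinS ↔ pl f + mi f ∈ P.S ∧ pl f - mi f ∈ P.S := Iff.rfl

lemma Pos.cosS_closed : IsClosed (P.cosS : Set C(G, ℝ)) := by
  have h1 : IsClosed {f : C(G, ℝ) | pl f + mi f ∈ P.S} :=
    P.closed.preimage (pl_cont.add mi_cont)
  have h2 : IsClosed {f : C(G, ℝ) | mi f - pl f ∈ P.S} :=
    P.closed.preimage (mi_cont.sub pl_cont)
  exact h1.inter h2

lemma Pos.cosS_const (r : ℝ) (hr : 0 ≤ r) : ContinuousMap.const G r ∈ P.cosS := by
  rw [P.mem_cosS]
  constructor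
  · have e : pl (ContinuousMap.const G r) + mi (ContinuousMap.const G r) =
        ContinuousMap.const (G × G) (2 * r) := by
      ext p; simp; ring
    rw [e]; exact P.const _ (by positivity)
  · have e : mi (ContinuousMap.const G r) - pl (ContinuousMap.const G r) = 0 := by
      ext p; simp
    rw [e]; exact P.S.zero_mem

lemma Pos.sinS_const (r : ℝ) (hr : 0 ≤ r) : ContinuousMap.const G r ∈ P.sinS := by
  rw [P.mem_sinS]
  constructor
  · have e : pl (ContinuousMap.const G r) + mi (ContinuousMap.const G r) =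
        ContinuousMap.const (G × G) (2 * r) := by
      ext p; simp; ring
    rw [e]; exact P.const _ (by positivity)
  · have e : pl (ContinuousMap.const G r) - mi (ContinuousMap.const G r) = 0 := by
      ext p; simp
    rw [e]; exact P.S.zero_mem

lemma Pos.sinS_closed : IsClosed (P.sinS : Set C(G, ℝ)) := by
  have h1 : IsClosed {f : C(G, ℝ) | pl f + mi f ∈ P.S} :=
    P.closed.preimage (pl_cont.add mi_cont)
  have h2 : IsClosed {f : C(G, ℝ) | pl f - mi f ∈ P.S} :=
    P.closed.preimage (pl_cont.sub mi_cont)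
  exact h1.inter h2

lemma Pos.cexp_sinS {f : C(G, ℝ)} (hf : f ∈ P.sinS) : cexp f ∈ P.sinS :=
  exp_mem P.sinS_closed P.sinS_const hf

lemma Pos.cexp_cosS {f : C(G, ℝ)} (hf : f ∈ P.cosS) : cexp f ∈ P.cosS :=
  exp_mem P.cosS_closed P.cosS_const hf

lemma Pos.even_exp {H : C(G, ℝ)} (hH : P.Even H) : pl (cexp H) * mi (cexp H) ∈ P.S := by
  have e : pl (cexp H) * mi (cexp H) = cexp (pl H + mi H) := by
    ext p; simp [Real.exp_add]
  rw [e]
  exact exp_mem P.closed P.const hH

variable [SecondCountableTopology G] [MeasurableSpace G] [BorelSpace G]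
  (μ : Measure G) [μ.IsAddHaarMeasure] [IsProbabilityMeasure μ]

lemma int4 {X : Type*} [MeasurableSpace X] {ν : Measure X} {a b c d : X → ℝ}
    (ha : Integrable a ν) (hb : Integrable b ν) (hc : Integrable c ν) (hd : Integrable d ν) :
    ∫ x, (a x - b x - (c x - d x)) ∂ν =
      (∫ x, a x ∂ν) - (∫ x, b x ∂ν) - ((∫ x, c x ∂ν) - ∫ x, d x ∂ν) := by
  have h1 : Integrable (fun x => a x - b x) ν := ha.sub hb
  have h2 : Integrable (fun x => c x - d x) ν := hc.sub hd
  rw [integral_sub h1 h2, integral_sub ha hb, integral_sub hc hd]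

/-- **the duplication identity** -/
theorem dup (h2 : ∀ g : G, ∃ h : G, h + h = g) (w F K : C(G, ℝ)) :
    ∫ p, (pl w * mi w * ((pl F - mi F) * (pl K - mi K))) p ∂(μ.prod μ) =
      2 * ((∫ x, w x * (F x * K x) ∂μ) * (∫ x, w x ∂μ) -
        (∫ x, w x * F x ∂μ) * (∫ x, w x * K x ∂μ)) := by
  have hF : Continuous (fun p : G × G => w p.1 * w p.2 * ((F p.1 - F p.2) * (K p.1 - K p.2))) := by
    fun_prop
  have hrot := integral_rot μ h2 hF
  have e1 : ∫ p, (pl w * mi w * ((pl F - mi F) * (pl K - mi K))) p ∂(μ.prod μ) =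
      ∫ p : G × G, w p.1 * w p.2 * ((F p.1 - F p.2) * (K p.1 - K p.2)) ∂(μ.prod μ) := by
    rw [← hrot]
    rfl
  rw [e1]
  have e2 : ∀ p : G × G, w p.1 * w p.2 * ((F p.1 - F p.2) * (K p.1 - K p.2)) =
      (w p.1 * (F p.1 * K p.1)) * w p.2 - (w p.1 * F p.1) * (w p.2 * K p.2) -
      ((w p.1 * K p.1) * (w p.2 * F p.2) - w p.1 * (w p.2 * (F p.2 * K p.2))) := by
    intro p; ring
  simp_rw [e2]
  have i : ∀ {f g : G → ℝ}, Continuous f → Continuous g →
      Integrable (fun p : G × G => f p.1 * g p.2) (μ.prod μ) := fun hf hg =>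
    cint ((hf.comp continuous_fst).mul (hg.comp continuous_snd))
  have cw : Continuous (fun x => w x) := w.continuous
  have cF : Continuous (fun x => w x * F x) := by fun_prop
  have cK : Continuous (fun x => w x * K x) := by fun_prop
  have cFK : Continuous (fun x => w x * (F x * K x)) := by fun_prop
  rw [int4 (i cFK cw) (i cF cK) (i cK cF) (i cw cFK),
    integral_prod_mul (fun x => w x * (F x * K x)) (fun x => w x),
    integral_prod_mul (fun x => w x * F x) (fun x => w x * K x),
    integral_prod_mul (fun x => w x * K x) (fun x => w x * F x),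
    integral_prod_mul (fun x => w x) (fun x => w x * (F x * K x))]
  ring

variable {P μ}

/-- **Ginibre inequality** -/
theorem gin (h2 : ∀ g : G, ∃ h : G, h + h = g)
    (hP : ∀ f ∈ P.S, 0 ≤ ∫ p, f p ∂(μ.prod μ)) {H F K : C(G, ℝ)}
    (hH : P.Even H) (hF : F ∈ P.cosS) (hK : K ∈ P.cosS) :
    (∫ x, cexp H x * F x ∂μ) * (∫ x, cexp H x * K x ∂μ) ≤
      (∫ x, cexp H x * (F x * K x) ∂μ) * ∫ x, cexp H x ∂μ := by
  have h := dup μ h2 (cexp H) F K
  have h1 := hP _ (P.S.mul_mem (P.even_exp hH) (P.S.mul_mem hF.2 hK.2))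
  have e : pl (cexp H) * mi (cexp H) * ((mi F - pl F) * (mi K - pl K)) =
      pl (cexp H) * mi (cexp H) * ((pl F - mi F) * (pl K - mi K)) := by ring
  rw [e, h] at h1
  linarith

/-- **KPV inequality** -/
theorem kpv (h2 : ∀ g : G, ∃ h : G, h + h = g)
    (hP : ∀ f ∈ P.S, 0 ≤ ∫ p, f p ∂(μ.prod μ)) {H F K : C(G, ℝ)}
    (hH : P.Even H) (hF : F ∈ P.cosS) (hK : K ∈ P.sinS) :
    (∫ x, cexp H x * (F x * K x) ∂μ) * (∫ x, cexp H x ∂μ) ≤
      (∫ x, cexp H x * F x ∂μ) * (∫ x, cexp H x * K x ∂μ) := by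
  have h := dup μ h2 (cexp H) F K
  have h1 := hP _ (P.S.mul_mem (P.even_exp hH) (P.S.mul_mem hF.2 hK.2))
  have e : ∀ p, (pl (cexp H) * mi (cexp H) * ((mi F - pl F) * (pl K - mi K))) p =
      -((pl (cexp H) * mi (cexp H) * ((pl F - mi F) * (pl K - mi K))) p) := by
    intro p
    simp only [ContinuousMap.coe_mul, ContinuousMap.coe_sub, Pi.mul_apply, Pi.sub_apply]
    ring
  simp_rw [e] at h1
  rw [integral_neg, h] at h1
  linarith

end cones

end Vale.Agent.P159.T1.H42
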