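import Vale.Agent.P159.T1.H42.Cone

/-!
Pinned spins as limits of peaked weights; independence of disjoint sets of spins.
-/

open MeasureTheory Filter Topology
open scoped BigOperators

set_option linter.all false

namespace Vale.Agent.P159.T1.H42

open Vale.Agent.P159

open Classical in
/-- the spins of `S` replaced by `φ` -/
noncomputable def pin (S : Set (ℤ × ℤ)) (φ : Ginf) (θ : Ginf) : Ginf :=
  fun v => if v ∈ S then φ v else θ v

lemma pin_mem {S : Set (ℤ × ℤ)} {φ θ : Ginf} {v : ℤ × ℤ} (h : v ∈ S) : pin S φ θ v = φ v := by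
  simp [pin, h]

lemma pin_notMem {S : Set (ℤ × ℤ)} {φ θ : Ginf} {v : ℤ × ℤ} (h : v ∉ S) :
    pin S φ θ v = θ v := by
  simp [pin, h]

lemma pin_cont (S : Set (ℤ × ℤ)) (φ : Ginf) : Continuous (pin S φ) := by
  refine continuous_pi fun v => ?_
  by_cases h : v ∈ S
  · have : (fun θ : Ginf => pin S φ θ v) = fun _ => φ v := by
      funext θ; exact pin_mem h
    rw [this]
    exact continuous_const
  · have : (fun θ : Ginf => pin S φ θ v) = fun θ => θ v := by
      funext θ; exact pin_notMem h
    rw [this]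
    exact continuous_apply v

/-- a function depends only on the spins of `S` -/
def Dep (S : Set (ℤ × ℤ)) (f : Ginf → ℝ) : Prop := ∀ θ θ', (∀ v ∈ S, θ v = θ' v) → f θ = f θ'

instance : (muInf.prod muInf).IsAddHaarMeasure := Measure.prod.instIsAddHaarMeasure _ _

instance (V : Type) [Fintype V] : ((torusHaar V).prod muInf).IsAddHaarMeasure :=
  Measure.prod.instIsAddHaarMeasure _ _

open Classical in
/-- first configuration on `S`, second off `S` -/
noncomputable def glue (S : Set (ℤ × ℤ)) : Ginf × Ginf →+ Ginf where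
  toFun p := fun v => if v ∈ S then p.1 v else p.2 v
  map_zero' := by
    funext v
    simp
  map_add' x y := by
    funext v
    by_cases h : v ∈ S <;> simp [h]

lemma glue_mem {S : Set (ℤ × ℤ)} {p : Ginf × Ginf} {v : ℤ × ℤ} (h : v ∈ S) :
    glue S p v = p.1 v := by
  simp [glue, h]

lemma glue_notMem {S : Set (ℤ × ℤ)} {p : Ginf × Ginf} {v : ℤ × ℤ} (h : v ∉ S) :
    glue S p v = p.2 v := by
  simp [glue, h]

lemma glue_cont (S : Set (ℤ × ℤ)) : Continuous (glue S) := by
  refine continuous_pi fun v => ?_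
  by_cases h : v ∈ S
  · have : (fun p => glue S p v) = fun p : Ginf × Ginf => p.1 v := by
      funext p; exact glue_mem h
    rw [this]
    exact (continuous_apply v).comp continuous_fst
  · have : (fun p => glue S p v) = fun p : Ginf × Ginf => p.2 v := by
      funext p; exact glue_notMem h
    rw [this]
    exact (continuous_apply v).comp continuous_snd

lemma glue_mp (S : Set (ℤ × ℤ)) : MeasurePreserving (glue S) (muInf.prod muInf) muInf := by
  apply AddMonoidHom.measurePreserving
  · exact glue_cont S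
  · intro θ
    refine ⟨(θ, θ), ?_⟩
    funext v
    by_cases h : v ∈ S
    · rw [glue_mem h]
    · rw [glue_notMem h]
  · simp

lemma integral_glue (S : Set (ℤ × ℤ)) {f : Ginf → ℝ} (hf : Continuous f) :
    ∫ p, f (glue S p) ∂(muInf.prod muInf) = ∫ θ, f θ ∂muInf := by
  have h := glue_mp S
  have h1 := integral_map (μ := muInf.prod muInf) h.measurable.aemeasurable (f := f)
    hf.aestronglyMeasurable
  rw [h.map_eq] at h1
  exact h1.symm

/-- **independence** -/
theorem indep {S : Set (ℤ × ℤ)} {f g : Ginf → ℝ} (hf : Continuous f) (hg : Continuous g)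
    (h1 : Dep S f) (h2 : Dep Sᶜ g) :
    ∫ θ, f θ * g θ ∂muInf = (∫ θ, f θ ∂muInf) * ∫ θ, g θ ∂muInf := by
  rw [← integral_glue S (f := fun θ => f θ * g θ) (hf.mul hg), ← integral_prod_mul]
  refine integral_congr_ae (Eventually.of_forall fun p => ?_)
  show f (glue S p) * g (glue S p) = f p.1 * g p.2
  rw [h1 (glue S p) p.1 fun v hv => glue_mem hv, h2 (glue S p) p.2 fun v hv => glue_notMem hv]

lemma cosT_eq_one {x : T} (h : cosT x = 1) : x = 0 := by
  have h1 := Real.Angle.cos_sq_add_sin_sq x
  have h2 : Real.Angle.cos x = 1 := h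
  rw [h2] at h1
  have h3 : Real.Angle.sin x = 0 := by
    have : Real.Angle.sin x ^ 2 = 0 := by linarith
    exact pow_eq_zero_iff (two_ne_zero) |>.1 this
  rcases Real.Angle.sin_eq_zero_iff.1 h3 with h4 | h4
  · exact h4
  · rw [h4] at h2
    rw [Real.Angle.cos_coe_pi] at h2
    norm_num at h2

lemma cosT_le_one (x : T) : cosT x ≤ 1 := by
  induction x using QuotientAddGroup.induction_on with
  | H r => exact Real.cos_le_one r

lemma neg_one_le_cosT (x : T) : -1 ≤ cosT x := by
  induction x using QuotientAddGroup.induction_on with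
  | H r => exact Real.neg_one_le_cos r

/-- the sum of the cosines of the spins of `S` relative to `φ` -/
noncomputable def ps (S : Finset (ℤ × ℤ)) (φ : Ginf) : C(Ginf, ℝ) :=
  ⟨fun θ => ∑ v ∈ S, cosT (θ v - φ v), by
    refine continuous_finsetSum _ fun v _ => ?_
    exact cont_cos.comp ((continuous_apply v).sub continuous_const)⟩

@[simp] lemma ps_apply (S : Finset (ℤ × ℤ)) (φ θ : Ginf) :
    ps S φ θ = ∑ v ∈ S, cosT (θ v - φ v) := rfl

/-- the peaked weight -/
noncomputable def PK (n : ℕ) (S : Finset (ℤ × ℤ)) (φ : Ginf) : C(Ginf, ℝ) :=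
  cexp (ContinuousMap.const Ginf (n : ℝ) * ps S φ)

lemma PK_apply (n : ℕ) (S : Finset (ℤ × ℤ)) (φ θ : Ginf) :
    PK n S φ θ = Real.exp (n * ∑ v ∈ S, cosT (θ v - φ v)) := rfl

lemma PK_union (n : ℕ) {S S' : Finset (ℤ × ℤ)} (h : Disjoint S S') (φ : Ginf) :
    PK n (S ∪ S') φ = PK n S φ * PK n S' φ := by
  ext θ
  rw [ContinuousMap.mul_apply, PK_apply, PK_apply, PK_apply, ← Real.exp_add,
    Finset.sum_union h, mul_add]

lemma PK_pos (n : ℕ) (S : Finset (ℤ × ℤ)) (φ θ : Ginf) : 0 < PK n S φ θ := by
  rw [PK_apply]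
  exact Real.exp_pos _

lemma PK_dep (n : ℕ) (S : Finset (ℤ × ℤ)) (φ : Ginf) : Dep (S : Set (ℤ × ℤ)) (PK n S φ) := by
  intro θ θ' h
  rw [PK_apply, PK_apply]
  congr 2
  refine Finset.sum_congr rfl fun v hv => ?_
  rw [h v hv]

/-- the normalization -/
noncomputable def NN (n : ℕ) (S : Finset (ℤ × ℤ)) (φ : Ginf) : ℝ := ∫ θ, PK n S φ θ ∂muInf

lemma NN_pos (n : ℕ) (S : Finset (ℤ × ℤ)) (φ : Ginf) : 0 < NN n S φ := by
  unfold NN
  have hc : Continuous (PK n S φ) := (PK n S φ).continuous
  exact Continuous.integral_pos_of_hasCompactSupport_nonneg_nonzero hc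
    (HasCompactSupport.of_compactSpace _) (fun θ => (PK_pos n S φ θ).le) (x := φ)
    (PK_pos n S φ φ).ne'

lemma NN_union (n : ℕ) {S S' : Finset (ℤ × ℤ)} (h : Disjoint S S') (φ : Ginf) :
    NN n (S ∪ S') φ = NN n S φ * NN n S' φ := by
  unfold NN
  rw [PK_union n h]
  refine indep (S := (S : Set (ℤ × ℤ))) (PK n S φ).continuous (PK n S' φ).continuous
    (PK_dep n S φ) ?_
  intro θ θ' h1
  refine PK_dep n S' φ θ θ' fun v hv => h1 v ?_
  intro h2
  exact Finset.disjoint_left.1 h h2 hv

/-- the peaked weights converge to pinned spins -/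
theorem peak (S : Finset (ℤ × ℤ)) (φ : Ginf) {Φ : Ginf → ℝ} (hΦ : Continuous Φ) :
    Tendsto (fun n => (NN n S φ)⁻¹ * ∫ θ, PK n S φ θ * Φ θ ∂muInf) atTop
      (𝓝 (∫ θ, Φ (pin S φ θ) ∂muInf)) := by
  classical
  set j : (S → T) × Ginf →+ Ginf :=
    { toFun := fun p => fun v => if h : v ∈ S then p.1 ⟨v, h⟩ else p.2 v
      map_zero' := by funext v; simp
      map_add' := by
        intro x y
        funext v
        by_cases h : v ∈ S <;> simp [h] } with hj
  have jm : ∀ (p : (S → T) × Ginf) (v : ℤ × ℤ) (h : v ∈ S), j p v = p.1 ⟨v, h⟩ := by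
    intro p v h
    simp [hj, h]
  have jn : ∀ (p : (S → T) × Ginf) (v : ℤ × ℤ) (h : v ∉ S), j p v = p.2 v := by
    intro p v h
    simp [hj, h]
  have jc : Continuous j := by
    refine continuous_pi fun v => ?_
    by_cases h : v ∈ S
    · have : (fun p => j p v) = fun p : (S → T) × Ginf => p.1 ⟨v, h⟩ := by
        funext p; exact jm p v h
      rw [this]
      exact (continuous_apply _).comp continuous_fst
    · have : (fun p => j p v) = fun p : (S → T) × Ginf => p.2 v := by
        funext p; exact jn p v h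
      rw [this]
      exact (continuous_apply v).comp continuous_snd
  have jmp : MeasurePreserving j ((torusHaar S).prod muInf) muInf := by
    apply AddMonoidHom.measurePreserving
    · exact jc
    · intro θ
      refine ⟨(fun v => θ v, θ), ?_⟩
      funext v
      by_cases h : v ∈ S
      · rw [jm _ v h]
      · rw [jn _ v h]
    · simp
  have hint : ∀ {f : Ginf → ℝ}, Continuous f →
      ∫ θ, f θ ∂muInf = ∫ y, ∫ x, f (j (y, x)) ∂muInf ∂(torusHaar S) := by
    intro f hf
    have h1 := integral_map (μ := (torusHaar S).prod muInf) jmp.measurable.aemeasurable (f := f)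
      hf.aestronglyMeasurable
    rw [jmp.map_eq] at h1
    rw [h1]
    exact integral_prod _ (cint (hf.comp jc))
  set c : (S → T) → ℝ := fun y => Real.exp (∑ v : S, cosT (y v - φ v)) with hc
  have cc' : Continuous c := by
    refine Real.continuous_exp.comp (continuous_finsetSum _ fun v _ => ?_)
    exact cont_cos.comp ((continuous_apply v).sub continuous_const)
  have hPK : ∀ n y x, PK n S φ (j (y, x)) = c y ^ n := by
    intro n y x
    rw [PK_apply, hc]
    simp only
    rw [← Real.exp_nat_mul]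
    congr 2
    rw [← Finset.sum_coe_sort S]
    refine Finset.sum_congr rfl fun v _ => ?_
    rw [jm (y, x) v v.2]
  set g : (S → T) → ℝ := fun y => ∫ x, Φ (j (y, x)) ∂muInf with hg
  have gc : Continuous g := by
    have h1 : Continuous (Function.uncurry fun (y : S → T) (x : Ginf) => Φ (j (y, x))) := by
      exact hΦ.comp (jc.comp (by fun_prop))
    have h2 := continuous_parametric_integral_of_continuous (μ := muInf) h1
      (isCompact_univ (X := Ginf))
    simpa using h2
  have h3 : ∀ n, ∫ θ, PK n S φ θ * Φ θ ∂muInf = ∫ y, c y ^ n * g y ∂(torusHaar S) := by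
    intro n
    rw [hint (f := fun θ => PK n S φ θ * Φ θ) ((PK n S φ).continuous.mul hΦ)]
    refine integral_congr_ae (Eventually.of_forall fun y => ?_)
    show ∫ x, PK n S φ (j (y, x)) * Φ (j (y, x)) ∂muInf = _
    simp_rw [hPK]
    rw [integral_const_mul]
  have h4 : ∀ n, NN n S φ = ∫ y, c y ^ n ∂(torusHaar S) := by
    intro n
    unfold NN
    rw [hint (PK n S φ).continuous]
    refine integral_congr_ae (Eventually.of_forall fun y => ?_)
    show ∫ x, PK n S φ (j (y, x)) ∂muInf = _
    simp_rw [hPK]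
    simp
  have hc0 : ∀ y, 0 < c y := fun y => Real.exp_pos _
  set y0 : S → T := fun v => φ v with hy0
  have hmax : ∀ y, y ≠ y0 → c y < c y0 := by
    intro y hy
    have : ∃ v, y v ≠ φ v := by
      by_contra hne
      push Not at hne
      exact hy (funext hne)
    obtain ⟨v, hv⟩ := this
    refine Real.exp_lt_exp.2 (Finset.sum_lt_sum (fun w _ => ?_) ⟨v, Finset.mem_univ v, ?_⟩)
    · simp only [hy0, sub_self, cosT_zero]
      exact cosT_le_one _
    · simp only [hy0, sub_self, cosT_zero]
      exact lt_of_le_of_ne (cosT_le_one _) fun h => hv (sub_eq_zero.1 (cosT_eq_one h))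
  have h6 := tendsto_setIntegral_pow_smul_of_unique_maximum_of_isCompact_of_continuousOn
    (μ := torusHaar S) (s := Set.univ) (x₀ := y0) isCompact_univ (c := c) (g := g)
    cc'.continuousOn (fun y _ => hmax y) (fun y _ => (hc0 y).le) (hc0 y0)
    (by simp) gc.continuousOn
  simp only [Measure.restrict_univ, smul_eq_mul] at h6
  have h7 : g y0 = ∫ θ, Φ (pin S φ θ) ∂muInf := by
    rw [hg]
    refine integral_congr_ae (Eventually.of_forall fun x => ?_)
    show Φ (j (y0, x)) = Φ (pin S φ x)
    congr 1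
    funext v
    by_cases h : v ∈ S
    · rw [jm _ v h, pin_mem (by simpa using h)]
    · rw [jn _ v h, pin_notMem (by simpa using h)]
  rw [← h7]
  refine h6.congr fun n => ?_
  rw [h3, h4]

/-- invariance under translations -/
lemma integral_add_right (φ : Ginf) (f : Ginf → ℝ) :
    ∫ θ, f (θ + φ) ∂muInf = ∫ θ, f θ ∂muInf := integral_add_right_eq_self f φ

end Vale.Agent.P159.T1.H42
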